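import Vale.Agent.P329.H647.Lev

/-!
Counting marks given by a left state, a letter and a right state, modulo `n`: two automata, one
reading from the left and one from the right, whose languages have height at most `h`.
-/

set_option linter.all false

namespace Vale.Agent.P329.H647

open Vale.Agent.P329 Vale.Agent.P329.H157

section cuts

variable {α σ τ : Type}

open Classical in
/-- number of marks in the word read from the left state `q`, with the right state `p` at its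
end -/
noncomputable def cn (δ : σ → α → σ) (ε : α → τ → τ) (m : σ) (a : α) (n' : τ) (p : τ) :
    σ → List α → ℕ
  | _, [] => 0
  | q, b :: w => cn δ ε m a n' p (δ q b) w +
      if q = m ∧ b = a ∧ w.foldr ε p = n' then 1 else 0

variable (δ : σ → α → σ) (ε : α → τ → τ) (m : σ) (a : α) (n' : τ)

theorem cn_nil (p : τ) (q : σ) : cn δ ε m a n' p q [] = 0 := rfl

open Classical in
theorem cn_cons (p : τ) (q : σ) (b : α) (w : List α) :
    cn δ ε m a n' p q (b :: w) = cn δ ε m a n' p (δ q b) w +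
      if q = m ∧ b = a ∧ w.foldr ε p = n' then 1 else 0 := rfl

theorem cn_append (p : τ) (u v : List α) : ∀ q, cn δ ε m a n' p q (u ++ v) =
    cn δ ε m a n' (v.foldr ε p) q u + cn δ ε m a n' p (u.foldl δ q) v := by
  classical
  induction u with
  | nil => intro q; simp [cn_nil]
  | cons b u ih =>
    intro q
    rw [List.cons_append, cn_cons, cn_cons, ih, List.foldl_cons, List.foldr_append]
    omega

/-- words beginning with the letter of the mark, in the right state `n'` after it -/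
def Hp (p : τ) : Set (List α) := {w | ∃ t, w = a :: t ∧ t.foldr ε p = n'}

theorem Hp_ne {p : τ} {u : List α} (h : u ∈ Hp ε a n' p) : u ≠ [] := by
  obtain ⟨t, rfl, -⟩ := h
  exact List.cons_ne_nil _ _

theorem Hp_foldr {p : τ} {v : List α} (h : v ∈ Hp ε a n' p) : v.foldr ε p = ε a n' := by
  obtain ⟨t, rfl, ht⟩ := h
  rw [List.foldr_cons, ht]

theorem Hp_append {p : τ} {u v : List α} (hu : u ∈ Hp ε a n' (ε a n')) (hv : v ∈ Hp ε a n' p) :
    u ++ v ∈ Hp ε a n' p := by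
  obtain ⟨t, rfl, ht⟩ := hu
  refine ⟨t ++ v, rfl, ?_⟩
  rw [List.foldr_append, Hp_foldr ε a n' hv, ht]

theorem Hp_left {p : τ} {b : α} {u v : List α} (h : b :: u ++ v ∈ Hp ε a n' p)
    (hv : v ∈ Hp ε a n' p) : b :: u ∈ Hp ε a n' (ε a n') := by
  obtain ⟨t, ht, ht'⟩ := h
  rw [List.cons_append, List.cons.injEq] at ht
  refine ⟨u, by rw [ht.1], ?_⟩
  rw [← ht.2, List.foldr_append, Hp_foldr ε a n' hv] at ht'
  exact ht'

/-- the words without a mark -/
theorem cn_eq_zero_iff (p : τ) (q : σ) (w : List α) :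
    cn δ ε m a n' p q w = 0 ↔ ¬ ∃ u t, u.foldl δ q = m ∧ t ∈ Hp ε a n' p ∧ u ++ t = w := by
  classical
  induction w generalizing q with
  | nil =>
    refine iff_of_true rfl ?_
    rintro ⟨u, t, -, ht, h⟩
    exact Hp_ne ε a n' ht (List.append_eq_nil_iff.1 h).2
  | cons b w ih =>
    rw [cn_cons, Nat.add_eq_zero_iff, ih]
    constructor
    · rintro ⟨h1, h2⟩ ⟨u, t, hu, ht, h⟩
      cases u with
      | nil =>
        rw [List.nil_append] at h
        subst h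
        obtain ⟨t', ht', ht''⟩ := ht
        rw [List.cons.injEq] at ht'
        have h3 : q = m ∧ b = a ∧ w.foldr ε p = n' := ⟨hu, ht'.1, by rw [ht'.2]; exact ht''⟩
        rw [if_pos h3] at h2
        exact absurd h2 (by norm_num)
      | cons c u =>
        rw [List.cons_append, List.cons.injEq] at h
        refine h1 ⟨u, t, ?_, ht, h.2⟩
        rw [← hu, List.foldl_cons, h.1]
    · intro hn
      refine ⟨?_, ?_⟩
      · rintro ⟨u, t, hu, ht, h⟩
        exact hn ⟨b :: u, t, hu, ht, by rw [List.cons_append, h]⟩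
      · by_cases h3 : q = m ∧ b = a ∧ w.foldr ε p = n'
        · exfalso
          exact hn ⟨[], b :: w, h3.1, ⟨w, by rw [h3.2.1], h3.2.2⟩, rfl⟩
        · rw [if_neg h3]

/-- from a mark to a later mark -/
def Zc : Set (List α) := Hp ε a n' (ε a n') ∩ {z | z.foldl δ m = m}

/-- from a mark to the next one -/
def Yc : Set (List α) := Zc δ ε m a n' \ cat (Zc δ ε m a n') (Zc δ ε m a n')

/-- from a mark to the end, without a further mark -/
def Tc (p : τ) : Set (List α) := Hp ε a n' p \ cat (Zc δ ε m a n') (Hp ε a n' p)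

/-- up to the first mark -/
def Uc (q : σ) : Set (List α) :=
  {u | u.foldl δ q = m} \ cat {u | u.foldl δ q = m} (Hp ε a n' (ε a n'))

theorem cn_hd {p : τ} {t : List α} (ht : t ∈ Hp ε a n' p) : 1 ≤ cn δ ε m a n' p m t := by
  obtain ⟨s, rfl, hs⟩ := ht
  rw [cn_cons, if_pos ⟨rfl, rfl, hs⟩]
  omega

theorem cn_hd_one_iff {p : τ} {t : List α} (ht : t ∈ Hp ε a n' p) :
    cn δ ε m a n' p m t = 1 ↔ ¬ ∃ u v, u ∈ Zc δ ε m a n' ∧ v ∈ Hp ε a n' p ∧ u ++ v = t := by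
  have ht0 := ht
  obtain ⟨s, rfl, hs⟩ := ht
  rw [cn_cons, if_pos ⟨rfl, rfl, hs⟩]
  have h0 : cn δ ε m a n' p (δ m a) s + 1 = 1 ↔ cn δ ε m a n' p (δ m a) s = 0 := by omega
  rw [h0, cn_eq_zero_iff]
  refine not_congr ⟨?_, ?_⟩
  · rintro ⟨u, v, hu, hv, h⟩
    have h1 : a :: u ++ v = a :: s := by rw [List.cons_append, h]
    exact ⟨a :: u, v, ⟨Hp_left ε a n' (by rw [h1]; exact ht0) hv, hu⟩, hv, h1⟩
  · rintro ⟨u, v, ⟨⟨u', rfl, hu'⟩, hu⟩, hv, h⟩
    rw [List.cons_append, List.cons.injEq] at h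
    exact ⟨u', v, hu, hv, h.2⟩

theorem mem_Tc {p : τ} {t : List α} :
    t ∈ Tc δ ε m a n' p ↔ t ∈ Hp ε a n' p ∧ cn δ ε m a n' p m t = 1 := by
  constructor
  · rintro ⟨h1, h2⟩
    refine ⟨h1, (cn_hd_one_iff δ ε m a n' h1).2 ?_⟩
    rintro ⟨u, v, hu, hv, h⟩
    exact h2 ⟨u, hu, v, hv, h⟩
  · rintro ⟨h1, h2⟩
    refine ⟨h1, ?_⟩
    rintro ⟨u, hu, v, hv, h⟩
    exact (cn_hd_one_iff δ ε m a n' h1).1 h2 ⟨u, v, hu, hv, h⟩

theorem mem_Yc {y : List α} :
    y ∈ Yc δ ε m a n' ↔ y ∈ Hp ε a n' (ε a n') ∧ y.foldl δ m = m ∧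
      cn δ ε m a n' (ε a n') m y = 1 := by
  constructor
  · rintro ⟨⟨h1, h3⟩, h2⟩
    refine ⟨h1, h3, (cn_hd_one_iff δ ε m a n' h1).2 ?_⟩
    rintro ⟨u, v, hu, hv, h⟩
    refine h2 ⟨u, hu, v, ⟨hv, ?_⟩, h⟩
    have h4 : y.foldl δ m = m := h3
    rw [← h, List.foldl_append, show u.foldl δ m = m from hu.2] at h4
    exact h4
  · rintro ⟨h1, h3, h2⟩
    refine ⟨⟨h1, h3⟩, ?_⟩
    rintro ⟨u, hu, v, hv, h⟩
    exact (cn_hd_one_iff δ ε m a n' h1).1 h2 ⟨u, v, hu, hv.1, h⟩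

theorem mem_Uc {q : σ} {u : List α} :
    u ∈ Uc δ ε m a n' q ↔ u.foldl δ q = m ∧ cn δ ε m a n' (ε a n') q u = 0 := by
  rw [cn_eq_zero_iff]
  constructor
  · rintro ⟨h1, h2⟩
    refine ⟨h1, ?_⟩
    rintro ⟨x, t, hx, ht, h⟩
    exact h2 ⟨x, hx, t, ht, h⟩
  · rintro ⟨h1, h2⟩
    refine ⟨h1, ?_⟩
    rintro ⟨x, hx, t, ht, h⟩
    exact h2 ⟨x, t, hx, ht, h⟩

theorem pwr_Yc (n : ℕ) {w : List α} (hw : w ∈ pwr (Yc δ ε m a n') n) :
    w.foldl δ m = m ∧ w.foldr ε (ε a n') = ε a n' ∧ cn δ ε m a n' (ε a n') m w = n ∧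
      ∀ p, ∀ v ∈ Hp ε a n' p, w ++ v ∈ Hp ε a n' p := by
  induction n generalizing w with
  | zero =>
    have : w = [] := hw
    subst this
    exact ⟨rfl, rfl, rfl, fun p v hv => hv⟩
  | succ n ih =>
    obtain ⟨y, hy, v, hv, rfl⟩ := hw
    rw [mem_Yc] at hy
    obtain ⟨h1, h2, h3, h4⟩ := ih hv
    refine ⟨?_, ?_, ?_, ?_⟩
    · rw [List.foldl_append, hy.2.1, h1]
    · rw [List.foldr_append, h2, Hp_foldr ε a n' hy.1]
    · rw [cn_append, h2, hy.2.1, hy.2.2, h3, Nat.add_comm]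
    · intro p t ht
      rw [List.append_assoc]
      exact Hp_append ε a n' hy.1 (h4 p t ht)

theorem kst_pwr_Yc (n : ℕ) {w : List α} (hw : w ∈ kst (pwr (Yc δ ε m a n') n)) :
    w.foldl δ m = m ∧ w.foldr ε (ε a n') = ε a n' ∧ n ∣ cn δ ε m a n' (ε a n') m w ∧
      ∀ p, ∀ v ∈ Hp ε a n' p, w ++ v ∈ Hp ε a n' p := by
  obtain ⟨L, hL, rfl⟩ := hw
  induction L with
  | nil => exact ⟨rfl, rfl, dvd_zero _, fun p v hv => hv⟩
  | cons x L ih =>
    obtain ⟨h1, h2, h5, h6⟩ := ih fun u hu => hL u (List.mem_cons_of_mem _ hu)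
    obtain ⟨h3, h4, h7, h8⟩ := pwr_Yc δ ε m a n' n (hL x List.mem_cons_self)
    rw [List.flatten_cons]
    refine ⟨?_, ?_, ?_, ?_⟩
    · rw [List.foldl_append, h3, h1]
    · rw [List.foldr_append, h2, h4]
    · rw [cn_append, h2, h3, h7]
      exact (dvd_refl n).add h5
    · intro p t ht
      rw [List.append_assoc]
      exact h8 p _ (h6 p t ht)

/-- A word which starts with a mark and has more than one mark splits off a word of `Yc`. -/
theorem split_firstc {p : τ} {t : List α} (ht : t ∈ Hp ε a n' p)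
    (h1 : cn δ ε m a n' p m t ≠ 1) :
    ∃ y v, y ∈ Yc δ ε m a n' ∧ v ∈ Hp ε a n' p ∧ y ++ v = t := by
  classical
  have hex : ∃ l, ∃ u v, u ∈ Zc δ ε m a n' ∧ v ∈ Hp ε a n' p ∧ u ++ v = t ∧ u.length = l := by
    by_contra hne
    refine h1 ((cn_hd_one_iff δ ε m a n' ht).2 ?_)
    rintro ⟨u, v, hu, hv, h⟩
    exact hne ⟨_, u, v, hu, hv, h, rfl⟩
  obtain ⟨u, v, hu, hv, h, hl⟩ := Nat.find_spec hex
  refine ⟨u, v, ⟨hu, ?_⟩, hv, h⟩
  rintro ⟨x, hx, y, hy, hxy⟩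
  refine Nat.find_min hex (m := x.length) ?_ ⟨x, y ++ v, hx, Hp_append ε a n' hy.1 hv, ?_, rfl⟩
  · rw [← hl, ← hxy, List.length_append]
    have := List.length_pos_of_ne_nil (Hp_ne ε a n' hy.1)
    omega
  · rw [← List.append_assoc, hxy, h]

theorem pwr_of_cn {p : τ} (k : ℕ) : ∀ {t : List α}, t ∈ Hp ε a n' p →
    cn δ ε m a n' p m t = k + 1 → t ∈ cat (pwr (Yc δ ε m a n') k) (Tc δ ε m a n' p) := by
  induction k with
  | zero =>
    intro t ht h
    exact ⟨[], rfl, t, (mem_Tc δ ε m a n').2 ⟨ht, h⟩, rfl⟩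
  | succ k ih =>
    intro t ht h
    obtain ⟨y, v, hy, hv, rfl⟩ := split_firstc δ ε m a n' ht (by omega)
    have hy' := (mem_Yc δ ε m a n').1 hy
    rw [cn_append, Hp_foldr ε a n' hv, hy'.2.1, hy'.2.2] at h
    obtain ⟨x, hx, z, hz, hxz⟩ := ih hv (by omega)
    exact ⟨y ++ x, ⟨y, hy, x, hx, rfl⟩, z, hz, by rw [List.append_assoc, hxz]⟩

/-- the words starting with a mark whose number of marks is `r + 1` modulo `n` -/
theorem tailc_eq (p : τ) (n r : ℕ) (hn : 0 < n) (hr : r < n) :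
    {t : List α | t ∈ Hp ε a n' p ∧ (cn δ ε m a n' p m t) % n = (r + 1) % n} =
      cat (kst (pwr (Yc δ ε m a n') n)) (cat (pwr (Yc δ ε m a n') r) (Tc δ ε m a n' p)) := by
  ext t
  constructor
  · rintro ⟨ht, h⟩
    have h1 := cn_hd δ ε m a n' ht
    obtain ⟨i, hi⟩ : ∃ i, cn δ ε m a n' p m t = n * i + r + 1 := by
      have h2 : (cn δ ε m a n' p m t - 1) % n = r := by
        have h3 : (cn δ ε m a n' p m t - 1 + 1) % n = (r + 1) % n := by
          rw [Nat.sub_add_cancel h1]; exact h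
        have h4 : (cn δ ε m a n' p m t - 1) ≡ r [MOD n] := Nat.ModEq.add_right_cancel' 1 h3
        have h5 : (cn δ ε m a n' p m t - 1) % n = r % n := h4
        rw [h5, Nat.mod_eq_of_lt hr]
      refine ⟨(cn δ ε m a n' p m t - 1) / n, ?_⟩
      have h6 := Nat.div_add_mod (cn δ ε m a n' p m t - 1) n
      rw [h2] at h6
      omega
    obtain ⟨x, hx, z, hz, rfl⟩ := pwr_of_cn δ ε m a n' (n * i + r) ht hi
    obtain ⟨u, hu, v, hv, rfl⟩ := pwr_add _ _ hx
    exact ⟨u, pwr_mul _ _ _ hu, v ++ z, ⟨v, hv, z, hz, rfl⟩, by rw [List.append_assoc]⟩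
  · rintro ⟨u, hu, _, ⟨v, hv, z, hz, rfl⟩, rfl⟩
    obtain ⟨h1, h2, h3, h4⟩ := kst_pwr_Yc δ ε m a n' n hu
    obtain ⟨h5, h6, h7, h8⟩ := pwr_Yc δ ε m a n' r hv
    obtain ⟨h9, h10⟩ := (mem_Tc δ ε m a n').1 hz
    refine ⟨h4 p _ (h8 p _ h9), ?_⟩
    rw [cn_append, cn_append, List.foldr_append, Hp_foldr ε a n' h9, h6, h1, h5, h7, h10]
    obtain ⟨c, hc⟩ := h3
    rw [hc, Nat.mul_add_mod]

/-- the words with `r + 1` marks modulo `n`, at least one -/
theorem somec_eq (p : τ) (q : σ) (n r : ℕ) :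
    {w : List α | cn δ ε m a n' p q w ≠ 0 ∧ (cn δ ε m a n' p q w) % n = (r + 1) % n} =
      cat (Uc δ ε m a n' q)
        {t : List α | t ∈ Hp ε a n' p ∧ (cn δ ε m a n' p m t) % n = (r + 1) % n} := by
  classical
  ext w
  constructor
  · rintro ⟨h0, h⟩
    have hex : ∃ l, ∃ u t, u.foldl δ q = m ∧ t ∈ Hp ε a n' p ∧ u ++ t = w ∧ u.length = l := by
      by_contra hne
      refine h0 ((cn_eq_zero_iff δ ε m a n' p q w).2 ?_)
      rintro ⟨u, t, hu, ht, h⟩
      exact hne ⟨_, u, t, hu, ht, h, rfl⟩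
    obtain ⟨u, t, hu, ht, rfl, hl⟩ := Nat.find_spec hex
    have h1 : u ∈ Uc δ ε m a n' q := by
      refine ⟨hu, ?_⟩
      rintro ⟨x, hx, y, hy, hxy⟩
      refine Nat.find_min hex (m := x.length) ?_
        ⟨x, y ++ t, hx, Hp_append ε a n' hy ht, ?_, rfl⟩
      · rw [← hl, ← hxy, List.length_append]
        have := List.length_pos_of_ne_nil (Hp_ne ε a n' hy)
        omega
      · rw [← List.append_assoc, hxy]
    have h2 := (mem_Uc δ ε m a n').1 h1
    rw [cn_append, Hp_foldr ε a n' ht, h2.2, h2.1, Nat.zero_add] at h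
    exact ⟨u, h1, t, ⟨ht, h⟩, rfl⟩
  · rintro ⟨u, hu, t, ⟨ht, h⟩, rfl⟩
    rw [mem_Uc] at hu
    have h1 := cn_hd δ ε m a n' ht
    refine ⟨?_, ?_⟩
    · rw [cn_append, Hp_foldr ε a n' ht, hu.2, hu.1]; omega
    · rw [cn_append, Hp_foldr ε a n' ht, hu.2, hu.1, Nat.zero_add, h]

/-- Counting marks modulo `n` raises the height by at most one. -/
theorem cn_sh {h : ℕ} (hA : Aut h δ) (hB : ∀ p p' : τ, SH h {u : List α | u.foldr ε p = p'})
    (p : τ) (q : σ) (n r : ℕ) (hn : 0 < n) :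
    SH (h + 1) {w : List α | cn δ ε m a n' p q w % n = r % n} := by
  have hH : ∀ p : τ, SH h (Hp ε a n' p) := by
    intro p
    refine Eq.mp (congrArg (SH h) ?_) ((SH.single (k := h) a).cat (hB p n'))
    ext w
    constructor
    · rintro ⟨u, hu, v, hv, rfl⟩
      rw [Set.mem_singleton_iff] at hu
      subst hu
      exact ⟨v, rfl, hv⟩
    · rintro ⟨t, rfl, ht⟩
      exact ⟨[a], rfl, t, ht, rfl⟩
  have hZ : SH h (Zc δ ε m a n') := (hH _).inter (hA m m)
  have hY : SH h (Yc δ ε m a n') := hZ.diff (hZ.cat hZ)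
  have hT : SH h (Tc δ ε m a n' p) := (hH p).diff (hZ.cat (hH p))
  have hU : SH h (Uc δ ε m a n' q) := (hA q m).diff ((hA q m).cat (hH _))
  have h0 : SH h {w : List α | cn δ ε m a n' p q w = 0} := by
    refine Eq.mp (congrArg (SH h) ?_) ((hA q m).cat (hH p)).compl
    ext w
    rw [Set.mem_compl_iff, mem_cat]
    change _ ↔ cn δ ε m a n' p q w = 0
    rw [cn_eq_zero_iff]
    refine not_congr ⟨?_, ?_⟩
    · rintro ⟨u, hu, t, ht, h⟩; exact ⟨u, t, hu, ht, h⟩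
    · rintro ⟨u, t, hu, ht, h⟩; exact ⟨u, hu, t, ht, h⟩
  have hS : ∀ s, s < n → SH (h + 1)
      {w : List α | cn δ ε m a n' p q w ≠ 0 ∧ (cn δ ε m a n' p q w) % n = (s + 1) % n} := by
    intro s hs
    rw [somec_eq, tailc_eq δ ε m a n' p n s hn hs]
    exact (hU.mono (Nat.le_succ h)).cat ((pwr_sh hY n).kst.cat
      (((pwr_sh hY s).cat hT).mono (Nat.le_succ h)))
  obtain ⟨s, hs, hsr⟩ : ∃ s, s < n ∧ (s + 1) % n = r % n := by
    refine ⟨(r % n + (n - 1)) % n, Nat.mod_lt _ hn, ?_⟩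
    rw [Nat.mod_add_mod, Nat.add_assoc, Nat.sub_add_cancel hn, Nat.add_mod_right, Nat.mod_mod]
  have h1 := hS s hs
  by_cases hr : r % n = 0
  · refine Eq.mp (congrArg (SH (h + 1)) ?_) ((h0.mono (Nat.le_succ h)).union h1)
    ext w
    constructor
    · rintro (hw | ⟨-, hw⟩)
      · change cn δ ε m a n' p q w % n = r % n
        rw [show cn δ ε m a n' p q w = 0 from hw, Nat.zero_mod, hr]
      · exact hw.trans hsr
    · intro hw
      by_cases hc : cn δ ε m a n' p q w = 0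
      · exact Or.inl hc
      · exact Or.inr ⟨hc, Eq.trans hw hsr.symm⟩
  · refine Eq.mp (congrArg (SH (h + 1)) ?_) h1
    ext w
    constructor
    · rintro ⟨-, hw⟩
      exact hw.trans hsr
    · intro hw
      refine ⟨?_, Eq.trans hw hsr.symm⟩
      intro hc
      apply hr
      rw [← show cn δ ε m a n' p q w % n = r % n from hw, hc, Nat.zero_mod]

end cuts

end Vale.Agent.P329.H647
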