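import Vale.Agent.P329.Defs
import Mathlib.Algebra.BigOperators.Group.List.Basic

/-! Definitions used to state the results on levels of extensions. -/

namespace Vale.Agent.P329.H647

/-- The language `L` has generalized star height at most `h`. -/
def HeightLe {α : Type} (h : ℕ) (L : Set (List α)) : Prop :=
  ∃ e : GRE α, e.height ≤ h ∧ e.lang = L

/-- Every language recognised by the monoid `M`, over every finite alphabet, for every morphism
and every accepting set, has generalized star height at most `h`. -/
def Recog (h : ℕ) (M : Type) [Monoid M] : Prop :=
  ∀ (α : Type) [Finite α] (φ : α → M) (S : Set M), HeightLe h {w : List α | (w.map φ).prod ∈ S}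

/-- For all states `q`, `q'` of the automaton with transition function `δ` the language of all
words leading from `q` to `q'` has generalized star height at most `h`. -/
def ReachLe {α σ : Type} (h : ℕ) (δ : σ → α → σ) : Prop :=
  ∀ q q' : σ, HeightLe h {w : List α | w.foldl δ q = q'}

end Vale.Agent.P329.H647
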