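import Vale.Agent.P329.H647.Lev
import Mathlib.GroupTheory.Solvable
import Mathlib.GroupTheory.QuotientGroup.Basic
import Mathlib.GroupTheory.Subgroup.Center

/-!
Extensions of automata and of groups.
-/

set_option linter.all false

namespace Vale.Agent.P329.H647

open Vale.Agent.P329 Vale.Agent.P329.H157

section aut

variable {α σ : Type}

/-- Pulling back star-free languages along the annotation by the states. -/
theorem ann_shk {h : ℕ} [Finite σ] (δ : σ → α → σ) (hA : Aut h δ) :
    ∀ (e : GRE (σ × α)), e.height = 0 → ∀ q, SH h {w : List α | ann δ id q w ∈ e.lang} := by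
  classical
  intro e
  induction e with
  | zero =>
    intro _ q
    exact SH.empty
  | one =>
    intro _ q
    refine Eq.mp (congrArg (SH h) ?_) (SH.eps (k := h) (α := α))
    ext w
    constructor
    · intro hw
      rw [Set.mem_singleton_iff] at hw
      subst hw
      rfl
    · intro hw
      have h1 : ann δ id q w = [] := hw
      have h2 := ann_length δ id w q
      rw [h1] at h2
      exact List.length_eq_zero_iff.mp h2.symm
  | letter ga =>
    intro _ q
    obtain ⟨g, a⟩ := ga
    by_cases hg : q = g
    · refine Eq.mp (congrArg (SH h) ?_) (SH.single (k := h) a)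
      ext w
      constructor
      · intro hw
        rw [Set.mem_singleton_iff] at hw
        subst hw
        change [(id q, a)] = [(g, a)]
        rw [← hg]; rfl
      · intro hw
        have h1 : ann δ id q w = [(g, a)] := hw
        cases w with
        | nil => cases h1
        | cons x w =>
          rw [ann, List.cons.injEq, Prod.mk.injEq] at h1
          have h2 := ann_length δ id w (δ q x)
          rw [h1.2] at h2
          have h3 : w = [] := List.length_eq_zero_iff.mp h2.symm
          rw [h3, h1.1.2]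
          rfl
    · refine Eq.mp (congrArg (SH h) ?_) (SH.empty (k := h) (α := α))
      ext w
      constructor
      · intro hw; exact absurd hw (Set.notMem_empty _)
      · intro hw
        have h1 : ann δ id q w = [(g, a)] := hw
        cases w with
        | nil => cases h1
        | cons x w =>
          rw [ann, List.cons.injEq, Prod.mk.injEq] at h1
          exact absurd h1.1.1 hg
  | union e f he hf =>
    intro h0 q
    have h0' : max e.height f.height = 0 := h0
    exact (he (by omega) q).union (hf (by omega) q)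
  | concat e f he hf =>
    intro h0 q
    have h0' : max e.height f.height = 0 := h0
    have h1 : SH h (⋃ q' : σ, cat ({w : List α | ann δ id q w ∈ e.lang} ∩
        {u : List α | u.foldl δ q = q'}) {w : List α | ann δ id q' w ∈ f.lang}) :=
      SH.iUnion fun q' => ((he (by omega) q).inter (hA q q')).cat (hf (by omega) q')
    refine Eq.mp (congrArg (SH h) ?_) h1
    ext w
    rw [Set.mem_iUnion]
    constructor
    · rintro ⟨q', u, ⟨h2, h3⟩, v, h4, rfl⟩
      rw [Set.mem_ofPred_eq] at h3
      subst h3
      exact ⟨_, h2, _, h4, (ann_append δ id u v q).symm⟩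
    · rintro ⟨s, hs, t, ht, he'⟩
      have h5 : ann δ id q w = ann δ id q (w.take s.length) ++
          ann δ id ((w.take s.length).foldl δ q) (w.drop s.length) := by
        rw [← ann_append, List.take_append_drop]
      have hlen : (ann δ id q (w.take s.length)).length = s.length := by
        rw [ann_length, List.length_take]
        have h6 := congrArg List.length he'
        rw [List.length_append, ann_length] at h6
        omega
      have h7 : s = ann δ id q (w.take s.length) ∧
          t = ann δ id ((w.take s.length).foldl δ q) (w.drop s.length) :=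
        List.append_inj (he'.trans h5) hlen.symm
      refine ⟨_, w.take s.length, ⟨?_, rfl⟩, w.drop s.length, ?_, List.take_append_drop _ _⟩
      · rw [Set.mem_ofPred_eq, ← h7.1]; exact hs
      · rw [Set.mem_ofPred_eq, ← h7.2]; exact ht
  | compl e he =>
    intro h0 q
    exact (he h0 q).compl
  | star e _ =>
    intro h0
    exact absurd h0 (Nat.succ_ne_zero _)

/-- the cascade: the second automaton reads the state of the first one and the letter -/
def casc {τ : Type} (δ : σ → α → σ) (η : τ → σ × α → τ) : σ × τ → α → σ × τ :=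
  fun x a => (δ x.1 a, η x.2 (x.1, a))

theorem casc_run {τ : Type} (δ : σ → α → σ) (η : τ → σ × α → τ) (w : List α) : ∀ (q : σ) (t : τ),
    w.foldl (casc δ η) (q, t) = (w.foldl δ q, (ann δ id q w).foldl η t) := by
  induction w with
  | nil => intro q t; rfl
  | cons a w ih =>
    intro q t
    rw [List.foldl_cons, List.foldl_cons]
    change w.foldl (casc δ η) (δ q a, η t (q, a)) = _
    rw [ih, ann, List.foldl_cons]
    rfl

/-- A star-free automaton on top does not raise the height. -/
theorem Aut.casc_star_free {h : ℕ} [Finite σ] {τ : Type} {δ : σ → α → σ} (hA : Aut h δ)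
    (η : τ → σ × α → τ) (hη : Aut 0 η) : Aut h (casc δ η) := by
  rintro ⟨q, t⟩ ⟨q', t'⟩
  obtain ⟨e, he, hl⟩ := hη t t'
  have h1 := (hA q q').inter (ann_shk δ hA e (Nat.le_zero.1 he) q)
  refine Eq.mp (congrArg (SH h) ?_) h1
  ext w
  change (w.foldl δ q = q' ∧ ann δ id q w ∈ e.lang) ↔ w.foldl (casc δ η) (q, t) = (q', t')
  rw [casc_run, Prod.mk.injEq, hl]
  rfl

/-- Sums over the marks modulo the order of a finite abelian group are determined by the numbers
of marks. -/
theorem prod_count {X V : Type} [Fintype X] [DecidableEq X] [CommGroup V] [Finite V]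
    (c : X → V) (l : List X) :
    (l.map c).prod = ∏ x : X, c x ^ (l.count x % Nat.card V) := by
  rw [Finset.prod_list_map_count]
  have h1 : ∀ x : X, c x ^ (l.count x % Nat.card V) = c x ^ l.count x := fun x =>
    pow_mod_natCard _ _
  rw [Finset.prod_congr rfl fun x _ => h1 x]
  refine Finset.prod_subset (Finset.subset_univ _) fun x _ hx => ?_
  rw [List.mem_toFinset] at hx
  rw [List.count_eq_zero_of_not_mem hx, pow_zero]

theorem cnt_eq [DecidableEq (σ × α)] (δ : σ → α → σ) (x : σ × α) (q : σ) (w : List α) :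
    cnt δ x q w = (ann δ id q w).count x := by
  unfold cnt List.count
  refine List.countP_congr fun y _ => ?_
  simp

/-- An abelian group on top raises the height by at most one. -/
theorem val_sh {h : ℕ} [Finite σ] [Finite α] {V : Type} [CommGroup V] [Finite V]
    {δ : σ → α → σ} (hA : Aut h δ) (c : σ × α → V) (q q' : σ) (v : V) :
    SH (h + 1) {w : List α | w.foldl δ q = q' ∧ ((ann δ id q w).map c).prod = v} := by
  classical
  have := Fintype.ofFinite σ
  have := Fintype.ofFinite α
  set n := Nat.card V with hn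
  have hn0 : 0 < n := Nat.card_pos
  have h1 : SH (h + 1) (⋃ ρ : σ × α → Fin n, ⋃ _ : (∏ x, c x ^ (ρ x : ℕ)) = v,
      ({w : List α | w.foldl δ q = q'} ∩
        ⋂ x : σ × α, {w : List α | cnt δ x q w % n = (ρ x : ℕ) % n})) :=
    SH.iUnion fun ρ => SH.iUnion_prop fun _ => ((hA q q').mono (Nat.le_succ h)).inter
      (SH.iInter fun x => cnt_sh δ hA x q n (ρ x) hn0)
  refine Eq.mp (congrArg (SH (h + 1)) ?_) h1
  ext w
  simp only [Set.mem_iUnion, Set.mem_inter_iff, Set.mem_iInter, exists_prop]
  change (∃ ρ : σ × α → Fin n, (∏ x, c x ^ (ρ x : ℕ)) = v ∧ w.foldl δ q = q' ∧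
    ∀ x, cnt δ x q w % n = (ρ x : ℕ) % n) ↔ w.foldl δ q = q' ∧ ((ann δ id q w).map c).prod = v
  constructor
  · rintro ⟨ρ, h2, h3, h4⟩
    refine ⟨h3, ?_⟩
    rw [prod_count, ← h2]
    refine Finset.prod_congr rfl fun x _ => ?_
    have h5 := h4 x
    rw [Nat.mod_eq_of_lt (ρ x).2] at h5
    rw [← h5, cnt_eq]
  · rintro ⟨h3, h4⟩
    refine ⟨fun x => ⟨cnt δ x q w % n, Nat.mod_lt _ hn0⟩, ?_, h3, fun x => ?_⟩
    · rw [← h4, prod_count]
      refine Finset.prod_congr rfl fun x _ => ?_
      change c x ^ (cnt δ x q w % n) = _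
      rw [cnt_eq]
    · exact (Nat.mod_mod _ _).symm

/-- An abelian group on top raises the height by at most one. -/
theorem Aut.casc_abelian {h : ℕ} [Finite σ] [Finite α] {V : Type} [CommGroup V] [Finite V]
    {δ : σ → α → σ} (hA : Aut h δ) (c : σ × α → V) :
    Aut (h + 1) (casc δ fun (v : V) x => v * c x) := by
  rintro ⟨q, v⟩ ⟨q', v'⟩
  refine Eq.mp (congrArg (SH (h + 1)) ?_) (val_sh hA c q q' (v⁻¹ * v'))
  have h1 : ∀ (l : List (σ × α)) (v : V),
      l.foldl (fun (v : V) x => v * c x) v = v * (l.map c).prod := by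
    intro l
    induction l with
    | nil => intro v; simp
    | cons x l ih => intro v; rw [List.foldl_cons, ih, List.map_cons, List.prod_cons, mul_assoc]
  ext w
  change (w.foldl δ q = q' ∧ ((ann δ id q w).map c).prod = v⁻¹ * v') ↔
    w.foldl (casc δ fun (v : V) x => v * c x) (q, v) = (q', v')
  rw [casc_run, Prod.mk.injEq, h1, eq_inv_mul_iff_mul_eq]

/-- Quotients of subautomata. -/
theorem Aut.image {h : ℕ} [Finite σ] {σ' : Type} {δ : σ → α → σ} {δ' : σ' → α → σ'}
    (hA : Aut h δ) (D : Set σ) (π : σ → σ') (hD : ∀ q ∈ D, ∀ a, δ q a ∈ D)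
    (hπ : ∀ q ∈ D, ∀ a, π (δ q a) = δ' (π q) a) (hs : ∀ q', ∃ q ∈ D, π q = q') : Aut h δ' := by
  intro p p'
  obtain ⟨q, hq, rfl⟩ := hs p
  have h1 : SH h (⋃ x : σ, ⋃ _ : π x = p', {w : List α | w.foldl δ q = x}) :=
    SH.iUnion fun x => SH.iUnion_prop fun _ => hA q x
  refine Eq.mp (congrArg (SH h) ?_) h1
  have key : ∀ (w : List α) (q : σ), q ∈ D → π (w.foldl δ q) = w.foldl δ' (π q) := by
    intro w
    induction w with
    | nil => intro q _; rfl
    | cons a w ih =>
      intro q hq
      rw [List.foldl_cons, List.foldl_cons, ih _ (hD q hq a), hπ q hq a]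
  ext w
  simp only [Set.mem_iUnion, exists_prop]
  change (∃ x, π x = p' ∧ w.foldl δ q = x) ↔ w.foldl δ' (π q) = p'
  rw [← key w q hq]
  constructor
  · rintro ⟨x, h2, h3⟩
    rw [h3, h2]
  · intro h2
    exact ⟨_, h2, rfl⟩

end aut

section group

/-- all languages recognised by `G` over finite alphabets have height at most `h` -/
def GrpH (h : ℕ) (G : Type) [Group G] : Prop :=
  ∀ (α : Type) [Finite α] (f : α → G) (S : Set G), SH h {w : List α | (w.map f).prod ∈ S}

theorem GrpH.aut {h : ℕ} {G : Type} [Group G] (hG : GrpH h G) {α : Type} [Finite α]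
    (f : α → G) : Aut h (fun (g : G) a => g * f a) := by
  intro q q'
  refine Eq.mp (congrArg (SH h) ?_) (hG α f {q⁻¹ * q'})
  ext w
  change (w.map f).prod ∈ ({q⁻¹ * q'} : Set G) ↔ w.foldl (fun g a => g * f a) q = q'
  rw [foldl_group, Set.mem_singleton_iff, eq_inv_mul_iff_mul_eq]

/-- Group extensions with abelian kernel. -/
theorem GrpH.ext {h : ℕ} {G Q : Type} [Group G] [Finite G] [Group Q] [Finite Q]
    (hQ : GrpH h Q) (π : G →* Q) (hab : ∀ x y : G, π x = 1 → π y = 1 → x * y = y * x) :
    GrpH (h + 1) G := by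
  classical
  intro α _ f S
  letI : CommGroup π.ker :=
    { (inferInstance : Group π.ker) with
      mul_comm := fun x y => Subtype.ext (hab x.1 y.1 x.2 y.2) }
  let δ : Q → α → Q := fun q a => q * π (f a)
  have hA : Aut h δ := hQ.aut fun a => π (f a)
  let s : Q → G := fun q => if hq : ∃ g, π g = q then hq.choose else 1
  have hs : ∀ g, π (s (π g)) = π g := by
    intro g
    have hq : ∃ g', π g' = π g := ⟨g, rfl⟩
    change π (if hq : ∃ g', π g' = π g then hq.choose else 1) = π g
    rw [dif_pos hq]
    exact hq.choose_spec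
  let c : Q × α → π.ker := fun x =>
    if hx : s x.1 * f x.2 * (s (x.1 * π (f x.2)))⁻¹ ∈ π.ker then
      ⟨s x.1 * f x.2 * (s (x.1 * π (f x.2)))⁻¹, hx⟩ else 1
  have hc : ∀ (g : G) (a : α), ((c (π g, a) : π.ker) : G) =
      s (π g) * f a * (s (π g * π (f a)))⁻¹ := by
    intro g a
    have hx : s (π g) * f a * (s (π g * π (f a)))⁻¹ ∈ π.ker := by
      rw [MonoidHom.mem_ker, map_mul, map_mul, map_inv, hs g, ← map_mul π g (f a), hs (g * f a),
        map_mul]
      group
    change ((if hx : s (π g) * f a * (s (π g * π (f a)))⁻¹ ∈ π.ker then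
      (⟨s (π g) * f a * (s (π g * π (f a)))⁻¹, hx⟩ : π.ker) else 1 : π.ker) : G) = _
    rw [dif_pos hx]
  have hrun : ∀ w : List α, w.foldl δ 1 = π (w.map f).prod := by
    intro w
    change w.foldl (fun q a => q * π (f a)) 1 = _
    rw [foldl_group, one_mul, map_list_prod, List.map_map]
    rfl
  have key : ∀ w : List α, (w.map f).prod =
      (s 1)⁻¹ * (((ann δ id 1 w).map c).prod : π.ker) * s (w.foldl δ 1) := by
    intro w
    induction w using List.reverseRecOn with
    | nil => simp [ann]
    | append_singleton w a ih =>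
      rw [List.map_append, List.prod_append, List.map_singleton, List.prod_singleton, ann_append,
        List.map_append, List.prod_append, List.foldl_append, List.foldl_cons, List.foldl_nil]
      change (w.map f).prod * f a = (s 1)⁻¹ *
        ((((ann δ id 1 w).map c).prod * ([c (w.foldl δ 1, a)] : List π.ker).prod : π.ker) : G) *
          s (w.foldl δ 1 * π (f a))
      rw [hrun w] at ih
      rw [List.prod_singleton, Subgroup.coe_mul, hrun w, hc]
      calc (w.map f).prod * f a =
          ((s 1)⁻¹ * (((ann δ id 1 w).map c).prod : π.ker) * s (π (w.map f).prod)) * f a := by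
            rw [← ih]
        _ = _ := by group
  have h1 : SH (h + 1) (⋃ q : Q, ⋃ v : π.ker, ⋃ _ : (s 1)⁻¹ * (v : G) * s q ∈ S,
      {w : List α | w.foldl δ 1 = q ∧ ((ann δ id 1 w).map c).prod = v}) :=
    SH.iUnion fun q => SH.iUnion fun v => SH.iUnion_prop fun _ => val_sh hA c 1 q v
  refine Eq.mp (congrArg (SH (h + 1)) ?_) h1
  ext w
  simp only [Set.mem_iUnion, exists_prop]
  change (∃ q, ∃ v : π.ker, (s 1)⁻¹ * (v : G) * s q ∈ S ∧ w.foldl δ 1 = q ∧
    ((ann δ id 1 w).map c).prod = v) ↔ (w.map f).prod ∈ S
  rw [key w]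
  constructor
  · rintro ⟨q, v, h2, h3, h4⟩
    rw [h3, h4]; exact h2
  · intro h2
    exact ⟨_, _, h2, rfl, rfl⟩

theorem GrpH.mono {h k : ℕ} (hk : h ≤ k) {G : Type} [Group G] (hG : GrpH h G) : GrpH k G :=
  fun α _ f S => (hG α f S).mono hk

/-- transport along an injective homomorphism -/
theorem GrpH.inj {h : ℕ} {G Q : Type} [Group G] [Group Q] (hQ : GrpH h Q) (π : G →* Q)
    (hπ : Function.Injective π) : GrpH h G := by
  intro α _ f S
  refine Eq.mp (congrArg (SH h) ?_) (hQ α (fun a => π (f a)) (π '' S))
  ext w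
  change (w.map fun a => π (f a)).prod ∈ π '' S ↔ (w.map f).prod ∈ S
  have h1 : (w.map fun a => π (f a)).prod = π (w.map f).prod := by
    rw [map_list_prod, List.map_map]; rfl
  rw [h1, Function.Injective.mem_set_image hπ]

/-- The derived series of a normal subgroup: if `N` is normal, `G / N` has height at most `h` and
`N` is solvable of derived length at most `k`, then `G` has height at most `h + k`. -/
theorem GrpH.series {h : ℕ} {G : Type} [Group G] [Finite G] (D : ℕ → Subgroup G)
    [hn : ∀ i, (D i).Normal] (h0 : GrpH h (G ⧸ D 0))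
    (hD : ∀ i, ∀ x ∈ D i, ∀ y ∈ D i, x * y * x⁻¹ * y⁻¹ ∈ D (i + 1)) (hle : ∀ i, D (i + 1) ≤ D i) :
    ∀ k, GrpH (h + k) (G ⧸ D k) := by
  intro k
  induction k with
  | zero => exact h0
  | succ k ih =>
    have : Finite (G ⧸ D k) := Quotient.finite _
    have : Finite (G ⧸ D (k + 1)) := Quotient.finite _
    let π : G ⧸ D (k + 1) →* G ⧸ D k := QuotientGroup.map (D (k + 1)) (D k) (MonoidHom.id G)
      (fun x hx => hle k hx)
    refine ih.ext π ?_
    intro x y
    induction x using QuotientGroup.induction_on with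
    | H x =>
      induction y using QuotientGroup.induction_on with
      | H y =>
        intro hx hy
        have hx' : ((x : G) : G ⧸ D k) = 1 := hx
        have hy' : ((y : G) : G ⧸ D k) = 1 := hy
        rw [QuotientGroup.eq_one_iff] at hx' hy'
        have h1 := hD k _ ((D k).inv_mem hy') _ ((D k).inv_mem hx')
        rw [← QuotientGroup.mk_mul, ← QuotientGroup.mk_mul, QuotientGroup.eq]
        rw [inv_inv, inv_inv] at h1
        have h2 : (x * y)⁻¹ * (y * x) = y⁻¹ * x⁻¹ * y * x := by group
        rw [h2]
        exact h1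

end group

end Vale.Agent.P329.H647
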