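import Vale.Agent.P329.H647.Mod
import Mathlib.Data.Set.Card.Arithmetic

/-!
Factorisations into two parts modulo `n`.
-/

set_option linter.all false

namespace Vale.Agent.P329.H647

open Vale.Agent.P329 Vale.Agent.P329.H157

section maps

variable {α : Type}

open Classical in
/-- Factorisations into two parts are factorisations around a letter. -/
theorem cut_card [Fintype α] (K K' : Set (List α)) (w : List α) :
    {x : List α × List α | x.1 ∈ K ∧ x.2 ∈ K' ∧ x.1 ++ x.2 = w}.ncard =
      (∑ a : α, {x : List α × List α | x.1 ∈ K ∧ x.2 ∈ {y | a :: y ∈ K'} ∧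
        x.1 ++ a :: x.2 = w}.ncard) + if w ∈ K ∧ [] ∈ K' then 1 else 0 := by
  have hfin : ∀ a : α, {x : List α × List α | x.1 ∈ K ∧ x.2 ∈ {y | a :: y ∈ K'} ∧
        x.1 ++ a :: x.2 = w}.Finite := fun a =>
    FS_finite (fun x => x ∈ K) (fun y => y ∈ {y | a :: y ∈ K'}) a w
  have himg : ∀ a : α, ((fun x : List α × List α => (x.1, a :: x.2)) ''
      {x : List α × List α | x.1 ∈ K ∧ x.2 ∈ {y | a :: y ∈ K'} ∧ x.1 ++ a :: x.2 = w}).ncard =
      {x : List α × List α | x.1 ∈ K ∧ x.2 ∈ {y | a :: y ∈ K'} ∧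
        x.1 ++ a :: x.2 = w}.ncard := by
    intro a
    apply Set.ncard_image_of_injective
    rintro ⟨x, y⟩ ⟨x', y'⟩ h
    have h2 : (x, a :: y) = (x', a :: y') := h
    rw [Prod.mk.injEq, List.cons.injEq] at h2
    rw [h2.1, h2.2.2]
  have hU : (⋃ a : α, (fun x : List α × List α => (x.1, a :: x.2)) ''
      {x : List α × List α | x.1 ∈ K ∧ x.2 ∈ {y | a :: y ∈ K'} ∧ x.1 ++ a :: x.2 = w}).ncard =
      ∑ a : α, {x : List α × List α | x.1 ∈ K ∧ x.2 ∈ {y | a :: y ∈ K'} ∧
        x.1 ++ a :: x.2 = w}.ncard := by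
    rw [Set.ncard_iUnion_of_finite (fun a => (hfin a).image _), finsum_eq_sum_of_fintype]
    · exact Finset.sum_congr rfl fun a _ => himg a
    · intro a b hab
      change Disjoint _ _
      rw [Set.disjoint_left]
      rintro _ ⟨x, -, rfl⟩ ⟨y, -, h⟩
      rw [Prod.mk.injEq, List.cons.injEq] at h
      exact hab h.2.1.symm
  have hUfin : (⋃ a : α, (fun x : List α × List α => (x.1, a :: x.2)) ''
      {x : List α × List α | x.1 ∈ K ∧ x.2 ∈ {y | a :: y ∈ K'} ∧
        x.1 ++ a :: x.2 = w}).Finite := Set.finite_iUnion fun a => (hfin a).image _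
  rw [← hU]
  by_cases h : w ∈ K ∧ [] ∈ K'
  · rw [if_pos h, ← Set.ncard_insert_of_notMem (a := (w, ([] : List α))) _ hUfin]
    · congr 1
      ext ⟨x, y⟩
      rw [Set.mem_insert_iff, Set.mem_iUnion]
      constructor
      · rintro ⟨hx, hy, he⟩
        cases y with
        | nil =>
          left
          have he' : x ++ [] = w := he
          rw [List.append_nil] at he'
          rw [he']
        | cons a y => exact Or.inr ⟨a, (x, y), ⟨hx, hy, he⟩, rfl⟩
      · rintro (h1 | ⟨a, ⟨x', y'⟩, ⟨hx, hy, he⟩, h1⟩)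
        · rw [Prod.mk.injEq] at h1
          obtain ⟨rfl, rfl⟩ := h1
          exact ⟨h.1, h.2, List.append_nil _⟩
        · have h2 : (x', a :: y') = (x, y) := h1
          rw [Prod.mk.injEq] at h2
          obtain ⟨rfl, rfl⟩ := h2
          exact ⟨hx, hy, he⟩
    · rw [Set.mem_iUnion]
      rintro ⟨a, ⟨x', y'⟩, -, h1⟩
      have h2 : (x', a :: y') = (w, ([] : List α)) := h1
      rw [Prod.mk.injEq] at h2
      exact absurd h2.2 (List.cons_ne_nil _ _)
  · rw [if_neg h, Nat.add_zero]
    congr 1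
    ext ⟨x, y⟩
    rw [Set.mem_iUnion]
    constructor
    · rintro ⟨hx, hy, he⟩
      cases y with
      | nil =>
        exfalso
        have he' : x ++ [] = w := he
        rw [List.append_nil] at he'
        exact h ⟨by rw [← he']; exact hx, hy⟩
      | cons a y => exact ⟨a, (x, y), ⟨hx, hy, he⟩, rfl⟩
    · rintro ⟨a, ⟨x', y'⟩, ⟨hx, hy, he⟩, h1⟩
      have h2 : (x', a :: y') = (x, y) := h1
      rw [Prod.mk.injEq] at h2
      obtain ⟨rfl, rfl⟩ := h2
      exact ⟨hx, hy, he⟩

/-- Counting factorisations modulo `n` raises the height by at most one. -/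
theorem cutprod [Finite α] {h : ℕ} {K K' : Set (List α)} (hK : SH h K) (hK' : SH h K') (n r : ℕ)
    (hn : 0 < n) :
    SH (h + 1) {w : List α | Set.ncard {x : List α × List α |
      x.1 ∈ K ∧ x.2 ∈ K' ∧ x.1 ++ x.2 = w} % n = r % n} := by
  classical
  have := Fintype.ofFinite α
  have h1 := sum_sh (k := h + 1) hn (Finset.univ : Finset (Option α))
    (fun o w => match o with
      | some a => {x : List α × List α | x.1 ∈ K ∧ x.2 ∈ {y | a :: y ∈ K'} ∧
        x.1 ++ a :: x.2 = w}.ncard
      | none => if w ∈ K ∧ [] ∈ K' then 1 else 0) (by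
      intro o _ r
      cases o with
      | some a => exact modprod hK (SH.lquo hK' [a]) a n r hn
      | none =>
        change SH (h + 1) {w : List α | (if w ∈ K ∧ [] ∈ K' then 1 else 0) % n = r % n}
        have h2 : SH (h + 1) ((⋃ _ : [] ∈ K' ∧ 1 % n = r % n, K) ∪
            (⋃ _ : 0 % n = r % n, (K ∩ {w | [] ∈ K'})ᶜ)) := by
          refine (SH.iUnion_prop fun _ => hK.mono (Nat.le_succ h)).union
            (SH.iUnion_prop fun _ => (SH.compl ?_))
          by_cases h3 : [] ∈ K'
          · refine Eq.mp (congrArg (SH (h + 1)) ?_) (hK.mono (Nat.le_succ h))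
            ext w
            exact ⟨fun hw => ⟨hw, h3⟩, fun hw => hw.1⟩
          · refine Eq.mp (congrArg (SH (h + 1)) ?_) (SH.empty (k := h + 1) (α := α))
            ext w
            exact ⟨fun hw => hw.elim, fun hw => absurd hw.2 h3⟩
        refine Eq.mp (congrArg (SH (h + 1)) ?_) h2
        ext w
        simp only [Set.mem_union, Set.mem_iUnion, exists_prop]
        change (([] ∈ K' ∧ 1 % n = r % n) ∧ w ∈ K) ∨ (0 % n = r % n ∧ ¬ (w ∈ K ∧ [] ∈ K')) ↔
          (if w ∈ K ∧ [] ∈ K' then 1 else 0) % n = r % n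
        by_cases h3 : w ∈ K ∧ [] ∈ K'
        · rw [if_pos h3]
          constructor
          · rintro (h4 | h4)
            · exact h4.1.2
            · exact absurd h3 h4.2
          · intro h4
            exact Or.inl ⟨⟨h3.2, h4⟩, h3.1⟩
        · rw [if_neg h3]
          constructor
          · rintro (h4 | h4)
            · exact absurd ⟨h4.2, h4.1.1⟩ h3
            · exact h4.1
          · intro h4
            exact Or.inr ⟨h4, h3⟩) r
  refine Eq.mp (congrArg (SH (h + 1)) ?_) h1
  ext w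
  rw [Set.mem_ofPred_eq, Set.mem_ofPred_eq, cut_card, Fintype.sum_option, Nat.add_comm]

end maps

end Vale.Agent.P329.H647
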