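import Vale.Agent.P329.H647.Ext
import Vale.Agent.P329.H112.Mal

/-!
Monoids which are aperiodic over an automaton whose languages have height at most `h`.
-/

set_option linter.all false

namespace Vale.Agent.P329.H647

open Vale.Agent.P329 Vale.Agent.P329.H112

section gen

variable {α σ M : Type} [Monoid M]

theorem malk_aux {h : ℕ} [Finite α] [Finite σ] [Finite M] (δ : σ → α → σ)
    (hA : Aut h δ) (φ : α → M)
    (hap : ∀ (v : List α) (q : σ), v ≠ [] → v.foldl δ q = q →
      ∃ k, ((v.map φ).prod) ^ (k + 1) = ((v.map φ).prod) ^ k)
    (q₀ : σ) (S : Set M) : SH h {w : List α | (w.map φ).prod ∈ S} := by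
  classical
  have hcyc : ∀ (z : List (σ × α)) (s : Option (M × σ)) (n : ℕ), 0 < n →
      (fun t => z.foldl (md δ φ) t)^[n] s = s → z.foldl (md δ φ) s = s := by
    intro z s n hn hs
    have hnone : ∀ j, (fun t => z.foldl (md δ φ) t)^[j] none = none := by
      intro j
      induction j with
      | zero => rfl
      | succ j ih => rw [Function.iterate_succ_apply', ih]; exact md_none δ φ z
    cases s with
    | none => exact md_none δ φ z
    | some s =>
      obtain ⟨m, q⟩ := s
      cases n with
      | zero => exact absurd hn (lt_irrefl 0)
      | succ n =>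
        cases n with
        | zero => exact hs
        | succ n =>
          by_cases hz : z = []
          · subst hz; rfl
          · -- the second reading does not die either
            have h1 : z.foldl (md δ φ) (some (m, q)) ≠ none := by
              intro h1
              rw [Function.iterate_succ_apply] at hs
              rw [h1, hnone] at hs
              cases hs
            obtain ⟨t, ht⟩ := Option.ne_none_iff_exists'.mp h1
            obtain ⟨m1, q1⟩ := t
            have h2 : z.foldl (md δ φ) (some (m1, q1)) ≠ none := by
              intro h2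
              rw [Function.iterate_succ_apply, Function.iterate_succ_apply] at hs
              rw [ht, h2, hnone] at hs
              cases hs
            obtain ⟨t2, ht2⟩ := Option.ne_none_iff_exists'.mp h2
            obtain ⟨e3, e4⟩ := md_some δ φ z m q _ ht
            obtain ⟨e5, e6⟩ := md_some δ φ z m1 q1 _ ht2
            have hq : q1 = q := by
              obtain ⟨x, z', rfl⟩ := List.exists_cons_of_ne_nil hz
              have e7 := e3.symm.trans e5
              rw [List.map_cons, H157.ann, H157.ann, List.cons.injEq, Prod.mk.injEq] at e7
              exact e7.1.1.symm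
            rw [Prod.mk.injEq] at e4
            have hqq : (z.map Prod.snd).foldl δ q = q := by rw [← e4.2]; exact hq
            obtain ⟨k, hk⟩ := hap (z.map Prod.snd) q (by
              intro h0; exact hz (List.map_eq_nil_iff.mp h0)) hqq
            -- values of all readings
            have h3 : ∀ j, (fun t => z.foldl (md δ φ) t)^[j] (some (m, q)) =
                some (m * (((z.map Prod.snd).map φ).prod) ^ j, q) := by
              intro j
              induction j with
              | zero => rw [pow_zero, mul_one]; rfl
              | succ j ih =>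
                rw [Function.iterate_succ_apply', ih]
                change z.foldl (md δ φ) (some (_, q)) = _
                have e8 := md_ann δ φ (z.map Prod.snd)
                  (m * (((z.map Prod.snd).map φ).prod) ^ j) q
                rw [← e3, hqq] at e8
                rw [e8, mul_assoc, ← pow_succ]
            set P := ((z.map Prod.snd).map φ).prod with hP
            have h4 : m * P ^ (n + 1 + 1) = m := by
              have := h3 (n + 1 + 1)
              rw [hs, Option.some.injEq, Prod.mk.injEq] at this
              exact this.1.symm
            have h5 : ∀ i, m * P ^ ((n + 1 + 1) * i) = m := by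
              intro i
              induction i with
              | zero => rw [Nat.mul_zero, pow_zero, mul_one]
              | succ i ih => rw [Nat.mul_succ, pow_add, ← mul_assoc, ih, h4]
            have h6 : ∀ i, P ^ (k + i + 1) = P ^ (k + i) := by
              intro i
              rw [Nat.add_right_comm, pow_add, hk, ← pow_add]
            have h7 : m * P = m := by
              have h8 := h5 (k + 1)
              obtain ⟨i, hi⟩ : ∃ i, (n + 1 + 1) * (k + 1) = k + i := by
                refine ⟨(n + 1) * (k + 1) + 1, ?_⟩
                ring
              rw [hi] at h8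
              have h9 : m * P ^ (k + i + 1) = m * P := by
                rw [pow_succ, ← mul_assoc, h8]
              rw [h6 i, h8] at h9
              exact h9.symm
            rw [ht, e4.1, hq, h7]
  have hfin : Finite (Option (M × σ)) := inferInstance
  obtain ⟨e, he, hl⟩ := dfa_sf (md δ φ) hcyc (some ((1 : M), q₀))
    (fun s => ∃ t : M × σ, s = some t ∧ t.1 ∈ S)
  have h1 := ann_shk δ hA e (Nat.le_zero.mp he) q₀
  refine Eq.mp (congrArg (SH h) ?_) h1
  ext w
  rw [Set.mem_ofPred_eq, Set.mem_ofPred_eq, hl, Set.mem_ofPred_eq, md_ann]
  constructor
  · rintro ⟨t, ht, hS⟩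
    rw [Option.some.injEq] at ht
    rw [← ht] at hS
    rw [← one_mul ((w.map φ).prod)]
    exact hS
  · intro hS
    exact ⟨_, rfl, by rw [one_mul]; exact hS⟩

/-- Only reachable states matter. -/
theorem malk {h : ℕ} [Finite α] [Finite σ] [Finite M] (δ : σ → α → σ)
    (hA : Aut h δ) (q₀ : σ) (φ : α → M)
    (hap : ∀ u v : List α, v ≠ [] → (u ++ v).foldl δ q₀ = u.foldl δ q₀ →
      ∃ k, ((v.map φ).prod) ^ (k + 1) = ((v.map φ).prod) ^ k)
    (S : Set M) : SH h {w : List α | (w.map φ).prod ∈ S} := by
  let T : Type := {q : σ // ∃ u : List α, u.foldl δ q₀ = q}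
  let δ' : T → α → T := fun q a => ⟨δ q.1 a, by
    obtain ⟨u, hu⟩ := q.2
    exact ⟨u ++ [a], by rw [List.foldl_append, hu]; rfl⟩⟩
  have hfold : ∀ (w : List α) (q : T), (w.foldl δ' q).1 = w.foldl δ q.1 := by
    intro w
    induction w with
    | nil => intro q; rfl
    | cons a w ih => intro q; rw [List.foldl_cons, List.foldl_cons, ih]
  refine malk_aux δ' (fun q q' => ?_) φ (fun v q hv hq => ?_) ⟨q₀, [], rfl⟩ S
  · refine Eq.mp (congrArg (SH h) ?_) (hA q.1 q'.1)
    ext w
    rw [Set.mem_ofPred_eq, Set.mem_ofPred_eq]
    constructor
    · intro h1; exact Subtype.ext ((hfold w q).trans h1)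
    · intro h1; rw [← hfold, h1]
  · obtain ⟨u, hu⟩ := q.2
    refine hap u v hv ?_
    rw [List.foldl_append, hu, ← hfold, hq]

end gen

/-- Relational morphisms to a group with languages of height at most `h`, aperiodic over `1`. -/
theorem malk_rel {h : ℕ} {α M G : Type} [Finite α] [Monoid M] [Finite M] [Group G] [Finite G]
    (hG : GrpH h G)
    (R : Submonoid (M × G)) (hR : ∀ m, ∃ g, (m, g) ∈ R)
    (hap : ∀ m, (m, 1) ∈ R → ∃ k, m ^ (k + 1) = m ^ k) (φ : α → M) (S : Set M) :
    SH h {w : List α | (w.map φ).prod ∈ S} := by
  choose g hg using fun a => hR (φ a)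
  have h1 : ∀ w : List α, ((w.map φ).prod, (w.map g).prod) ∈ R := by
    intro w
    induction w with
    | nil => exact R.one_mem
    | cons a w ih =>
      rw [List.map_cons, List.map_cons, List.prod_cons, List.prod_cons]
      exact R.mul_mem (hg a) ih
  refine malk (fun x a => x * g a) (hG.aut g) (1 : G) φ (fun u v hv huv => ?_) S
  rw [H157.foldl_group, H157.foldl_group, one_mul, one_mul, List.map_append, List.prod_append]
    at huv
  have h2 := mul_eq_left.mp huv
  refine hap _ ?_
  have h3 := h1 v
  rw [h2] at h3
  exact h3

end Vale.Agent.P329.H647
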