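import Vale.Agent.P329.H647.Defs
import Vale.Agent.P329.H647.Mon
import Vale.Agent.P329.H112.Cls
import Vale.Agent.P329.H112.Mon
import Vale.Agent.P329.H320.Final

/-!
The theorem on normal solvable subgroups.
-/

set_option linter.all false

namespace Vale.Agent.P329.H647

open Vale.Agent.P329 Vale.Agent.P329.H112

theorem grpH_iff {h : ℕ} {G : Type} [Group G] : GrpH h G ↔ Recog h G := Iff.rfl

theorem GrpH.triv {G : Type} [Group G] [Subsingleton G] : GrpH 0 G := by
  intro α _ f S
  by_cases h1 : (1 : G) ∈ S
  · refine Eq.mp (congrArg (SH 0) ?_) (SH.univ (k := 0) (α := α))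
    ext w
    exact ⟨fun _ => by
      change (w.map f).prod ∈ S
      rw [Subsingleton.elim (w.map f).prod 1]; exact h1, fun _ => trivial⟩
  · refine Eq.mp (congrArg (SH 0) ?_) (SH.empty (k := 0) (α := α))
    ext w
    refine ⟨fun h => absurd h (Set.notMem_empty _), fun h => ?_⟩
    change (w.map f).prod ∈ S at h
    rw [Subsingleton.elim (w.map f).prod 1] at h
    exact absurd h h1

/-- Normal solvable subgroups: the height of `G` is at most the height of `G / N` plus the derived
length of `N`. -/
theorem GrpH.solv {h k : ℕ} {G : Type} [Group G] [Finite G] (N : Subgroup G) [hN : N.Normal]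
    (hk : derivedSeries N k = ⊥) (h0 : GrpH h (G ⧸ N)) : GrpH (h + k) G := by
  let D : ℕ → Subgroup G := fun i => (derivedSeries N i).map N.subtype
  have hn : ∀ i, (D i).Normal := fun i => by
    change ((derivedSeries N i).map N.subtype).Normal
    exact ConjAct.normal_of_characteristic_of_normal
  have hD0 : D 0 = N := by
    change (derivedSeries N 0).map N.subtype = N
    rw [derivedSeries_zero, ← MonoidHom.range_eq_map, Subgroup.range_subtype]
  have hDk : D k = ⊥ := by
    change (derivedSeries N k).map N.subtype = ⊥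
    rw [hk, Subgroup.map_bot]
  have h1 : GrpH h (G ⧸ D 0) := by
    refine h0.inj (QuotientGroup.map (D 0) N (MonoidHom.id G) (fun x hx => hD0 ▸ hx)) ?_
    rw [injective_iff_map_eq_one]
    intro x
    induction x using QuotientGroup.induction_on with
    | H x =>
      intro hx
      have hx' : ((x : G) : G ⧸ N) = 1 := hx
      rw [QuotientGroup.eq_one_iff] at hx' ⊢
      rw [hD0]; exact hx'
  have h2 := GrpH.series D (h := h) h1 (by
    rintro i x ⟨x', hx', rfl⟩ y ⟨y', hy', rfl⟩
    refine ⟨x' * y' * x'⁻¹ * y'⁻¹, ?_, by simp⟩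
    rw [SetLike.mem_coe, derivedSeries_succ]
    exact Subgroup.commutator_mem_commutator hx' hy') (fun i => by
    refine Subgroup.map_mono ?_
    exact derivedSeries_antitone N (Nat.le_succ i)) k
  refine h2.inj (QuotientGroup.mk' (D k)) ?_
  rw [injective_iff_map_eq_one]
  intro x hx
  have hx' : ((x : G) : G ⧸ D k) = 1 := hx
  rw [QuotientGroup.eq_one_iff, hDk, Subgroup.mem_bot] at hx'
  exact hx'

theorem GrpH.solvable {d : ℕ} {G : Type} [Group G] [Finite G] (hd : derivedSeries G d = ⊥) :
    GrpH d G := by
  have h0 : GrpH 0 (G ⧸ (derivedSeries G 0)) := by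
    have : Subsingleton (G ⧸ derivedSeries G 0) := by
      rw [derivedSeries_zero]
      exact QuotientGroup.subsingleton_quotient_top
    exact GrpH.triv
  have h2 := GrpH.series (fun i => derivedSeries G i) (h := 0) h0 (by
    intro i x hx y hy
    rw [derivedSeries_succ]
    exact Subgroup.commutator_mem_commutator hx hy) (fun i =>
      derivedSeries_antitone G (Nat.le_succ i)) d
  rw [Nat.zero_add] at h2
  refine h2.inj (QuotientGroup.mk' (derivedSeries G d)) ?_
  rw [injective_iff_map_eq_one]
  intro x hx
  have hx' : ((x : G) : G ⧸ derivedSeries G d) = 1 := hx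
  rw [QuotientGroup.eq_one_iff, hd, Subgroup.mem_bot] at hx'
  exact hx'

theorem GrpH.divides {G : Type} [Group G] (hG : DividesProduct G) : GrpH 1 G := by
  intro α _ f S
  obtain ⟨h1, h2, h3, h4, h5⟩ := H320.final H112.core_all
  obtain ⟨ι, hι, H, hg, hH, D, π, hπ⟩ := hG
  haveI : ∀ i, Finite (H i) := fun i => (hH i).1
  exact (h2 α ι H (fun i => (hH i).2) D G π hπ f).1 S

end Vale.Agent.P329.H647
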