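import Vale.Agent.P329.R3.H96.Fin

/-!
Regular languages closed under the insertion of words with trivial value; rational operations on
languages recognised through one map to a group.
-/

set_option linter.all false

namespace Vale.Agent.P329.H647

open Vale.Agent.P329 Vale.Agent.P329.H157 Vale.Agent.P329.H96

section ins

variable {α G : Type} [Group G]

/-- closed under the insertion of words with trivial value -/
def Insr (F : α → G) (K : Set (List α)) : Prop :=
  ∀ x v y : List α, (v.map F).prod = 1 → x ++ y ∈ K → x ++ v ++ y ∈ K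

theorem insr_sh {h : ℕ} [Finite α] [Finite G] {F : α → G} (hF : MapLe h F) {K : Set (List α)}
    (hK : H259.FQ K) (hI : Insr F K) : SH h K := by
  obtain ⟨M, iM, fM, f, hf, hk⟩ := hK.monoid
  have hw : ∀ w : List α, (w.map fun a => f [a]).prod = f w := by
    intro w
    induction w with
    | nil => exact hf.1.symm
    | cons a w ih =>
      rw [List.map_cons, List.prod_cons, ih, ← hf.2]
      rfl
  have hins : ∀ (v : List α), (v.map F).prod = 1 → ∀ (n : ℕ) (x y : List α),
      x ++ y ∈ K → x ++ H259.pw v n ++ y ∈ K := by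
    intro v hv n
    induction n with
    | zero => intro x y h; rw [H259.pw_zero, List.append_nil]; exact h
    | succ n ih =>
      intro x y h
      have h1 := hI x v (H259.pw v n ++ y) hv (by rw [← List.append_assoc]; exact ih x y h)
      rw [H259.pw_succ, ← List.append_assoc x v (H259.pw v n), List.append_assoc (x ++ v) (H259.pw v n) y]
      exact h1
  obtain ⟨n, hn, hexp⟩ := H259.exists_exp M
  have h1 := hF.over (fun a => f [a]) (fun v hv0 hv => by
    refine ⟨n, ?_⟩
    rw [hw]
    rw [← hf.pw, ← hf.pw, hk]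
    intro x y
    constructor
    · intro h2
      -- insert `n - 1` more copies
      have h3 : x ++ H259.pw v (n + n) ++ y ∈ K := by
        have h4 := hins v hv (n - 1) (x ++ H259.pw v (n + 1)) y h2
        have e : H259.pw v (n + n) = H259.pw v (n + 1) ++ H259.pw v (n - 1) := by
          rw [← H259.pw_add]; congr 1; omega
        rw [e, ← List.append_assoc]
        exact h4
      have h5 : f (H259.pw v (n + n)) = f (H259.pw v n) := by
        rw [H259.pw_add, hf.2, hf.pw]
        exact hexp _
      exact ((hk _ _).1 h5 x y).1 h3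
    · intro h2
      have h4 := hins v hv 1 (x ++ H259.pw v n) y h2
      rw [H259.pw_one] at h4
      rw [H259.pw_succ', ← List.append_assoc]
      exact h4) {m | ∃ w ∈ K, f w = m}
  refine Eq.mp (congrArg (SH h) ?_) h1
  ext w
  change (∃ w' ∈ K, f w' = (w.map fun a => f [a]).prod) ↔ w ∈ K
  rw [hw]
  constructor
  · rintro ⟨w', hw', he⟩
    have h2 := ((hk _ _).1 he [] []).1 (by simpa using hw')
    simpa using h2
  · intro h2
    exact ⟨w, h2, rfl⟩

/-- Languages obtained from the languages recognised through `F` and the empty word by unions,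
concatenations and stars. -/
inductive RatOver (F : α → G) : Set (List α) → Prop
  | atom (S : Set G) : RatOver F {w | (w.map F).prod ∈ S}
  | eps : RatOver F {[]}
  | union (K L : Set (List α)) : RatOver F K → RatOver F L → RatOver F (K ∪ L)
  | concat (K L : Set (List α)) : RatOver F K → RatOver F L →
      RatOver F {w | ∃ u ∈ K, ∃ v ∈ L, u ++ v = w}
  | star (K : Set (List α)) : RatOver F K →
      RatOver F {w | ∃ L : List (List α), (∀ u ∈ L, u ∈ K) ∧ L.flatten = w}

theorem Insr.cat {F : α → G} {K L : Set (List α)} (hK : Insr F K) (hL : Insr F L) :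
    Insr F (P329.cat K L) := by
  rintro x v y hv ⟨u, hu, t, ht, he⟩
  rcases List.append_eq_append_iff.1 he with ⟨as, h1, h2⟩ | ⟨bs, h1, h2⟩
  · -- `x = u ++ as`, `t = as ++ y`
    subst h1 h2
    exact ⟨u, hu, as ++ v ++ y, hL as v y hv ht, by simp⟩
  · -- `u = x ++ bs`, `y = bs ++ t`
    subst h1 h2
    exact ⟨x ++ v ++ bs, hK x v bs hv hu, t, ht, by simp⟩

/-- nonempty products -/
def plus (K : Set (List α)) : Set (List α) := P329.cat K (kst K)

theorem Insr.plus {F : α → G} {K : Set (List α)} (hK : Insr F K) : Insr F (plus K) := by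
  rintro x v y hv ⟨u, hu, t, ⟨L, hL, rfl⟩, he⟩
  induction L generalizing u x with
  | nil =>
    rw [List.flatten_nil, List.append_nil] at he
    subst he
    exact ⟨x ++ v ++ y, hK x v y hv hu, [], ⟨[], by simp, rfl⟩, by simp⟩
  | cons z L ih =>
    have hz : z ∈ K := hL z List.mem_cons_self
    have hL' : ∀ u ∈ L, u ∈ K := fun u hu => hL u (List.mem_cons_of_mem _ hu)
    rcases List.append_eq_append_iff.1 he with ⟨as, h1, h2⟩ | ⟨bs, h1, h2⟩
    · -- `x = u ++ as`
      subst h1
      rw [List.flatten_cons] at h2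
      obtain ⟨p, hp, t, ht, he'⟩ := ih as z hz hL' h2
      obtain ⟨L', h3, rfl⟩ := ht
      refine ⟨u, hu, p ++ L'.flatten, ⟨p :: L', ?_, rfl⟩, ?_⟩
      · intro s hs
        rcases List.mem_cons.1 hs with h | h
        · rw [h]; exact hp
        · exact h3 s h
      · rw [he']; simp
    · -- `u = x ++ bs`
      subst h1 h2
      exact ⟨x ++ v ++ bs, hK x v bs hv hu, (z :: L).flatten, ⟨z :: L, hL, rfl⟩, by simp⟩

/-- Normal form: an insertion closed regular language, possibly with the empty word added. -/
theorem RatOver.nf {F : α → G} [Finite G] {K : Set (List α)} (hK : RatOver F K) :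
    ∃ (K0 : Set (List α)) (p : Prop), H259.FQ K0 ∧ Insr F K0 ∧
      ∀ w, w ∈ K ↔ w ∈ K0 ∨ (p ∧ w = []) := by
  induction hK with
  | atom S =>
    refine ⟨{w | (w.map F).prod ∈ S}, False, ?_, ?_, fun w => by simp⟩
    · -- finitely many quotients
      refine (Set.finite_range fun T : Set G => {w : List α | (w.map F).prod ∈ T}).subset ?_
      rintro _ ⟨x, rfl⟩
      refine ⟨{g | (x.map F).prod * g ∈ S}, ?_⟩
      ext w
      change (x.map F).prod * (w.map F).prod ∈ S ↔ ((x ++ w).map F).prod ∈ S
      rw [List.map_append, List.prod_append]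
    · intro x v y hv h
      change ((x ++ v ++ y).map F).prod ∈ S
      have h' : ((x ++ y).map F).prod ∈ S := h
      rw [List.map_append, List.map_append, List.prod_append, List.prod_append, hv, mul_one,
        ← List.prod_append, ← List.map_append]
      exact h'
  | eps =>
    refine ⟨∅, True, H259.FQ.empty, fun x v y _ h => h.elim, fun w => ?_⟩
    rw [Set.mem_singleton_iff]
    simp
  | union K L _ _ ih1 ih2 =>
    obtain ⟨K0, p, h1, h2, h3⟩ := ih1
    obtain ⟨L0, q, h4, h5, h6⟩ := ih2
    refine ⟨K0 ∪ L0, p ∨ q, h1.union h4, ?_, fun w => ?_⟩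
    · rintro x v y hv (h | h)
      · exact Or.inl (h2 x v y hv h)
      · exact Or.inr (h5 x v y hv h)
    · rw [Set.mem_union, h3, h6, Set.mem_union]
      tauto
  | concat K L _ _ ih1 ih2 =>
    classical
    obtain ⟨K0, p, h1, h2, h3⟩ := ih1
    obtain ⟨L0, q, h4, h5, h6⟩ := ih2
    refine ⟨P329.cat K0 L0 ∪ ((if q then K0 else ∅) ∪ (if p then L0 else ∅)), p ∧ q,
      (h1.cat h4).union (.union ?_ ?_), ?_, fun w => ?_⟩
    · by_cases hq : q
      · rw [if_pos hq]; exact h1
      · rw [if_neg hq]; exact H259.FQ.empty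
    · by_cases hp : p
      · rw [if_pos hp]; exact h4
      · rw [if_neg hp]; exact H259.FQ.empty
    · rintro x v y hv (h | h | h)
      · exact Or.inl (h2.cat h5 x v y hv h)
      · right; left
        by_cases hq : q
        · rw [if_pos hq] at h ⊢; exact h2 x v y hv h
        · rw [if_neg hq] at h; exact h.elim
      · right; right
        by_cases hp : p
        · rw [if_pos hp] at h ⊢; exact h5 x v y hv h
        · rw [if_neg hp] at h; exact h.elim
    · constructor
      · rintro ⟨u, hu, v, hv, rfl⟩
        rcases (h3 u).1 hu with hu | ⟨hp, rfl⟩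
        · rcases (h6 v).1 hv with hv | ⟨hq, rfl⟩
          · exact Or.inl (Or.inl ⟨u, hu, v, hv, rfl⟩)
          · left; right; left
            rw [if_pos hq, List.append_nil]; exact hu
        · rcases (h6 v).1 hv with hv | ⟨hq, rfl⟩
          · left; right; right
            rw [if_pos hp]; exact hv
          · exact Or.inr ⟨⟨hp, hq⟩, rfl⟩
      · rintro ((⟨u, hu, v, hv, rfl⟩ | h | h) | ⟨⟨hp, hq⟩, rfl⟩)
        · exact ⟨u, (h3 u).2 (Or.inl hu), v, (h6 v).2 (Or.inl hv), rfl⟩
        · by_cases hq : q
          · rw [if_pos hq] at h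
            exact ⟨w, (h3 w).2 (Or.inl h), [], (h6 []).2 (Or.inr ⟨hq, rfl⟩), by simp⟩
          · rw [if_neg hq] at h; exact h.elim
        · by_cases hp : p
          · rw [if_pos hp] at h
            exact ⟨[], (h3 []).2 (Or.inr ⟨hp, rfl⟩), w, (h6 w).2 (Or.inl h), rfl⟩
          · rw [if_neg hp] at h; exact h.elim
        · exact ⟨[], (h3 []).2 (Or.inr ⟨hp, rfl⟩), [], (h6 []).2 (Or.inr ⟨hq, rfl⟩), rfl⟩
  | star K _ ih =>
    obtain ⟨K0, p, h1, h2, h3⟩ := ih
    refine ⟨plus K0, True, h1.cat h1.kst, h2.plus, fun w => ?_⟩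
    constructor
    · rintro ⟨L, hL, rfl⟩
      induction L with
      | nil => exact Or.inr ⟨trivial, rfl⟩
      | cons u L ih =>
        have h4 := ih fun x hx => hL x (List.mem_cons_of_mem _ hx)
        rw [List.flatten_cons]
        rcases (h3 u).1 (hL u List.mem_cons_self) with hu | ⟨-, rfl⟩
        · left
          rcases h4 with ⟨s, hs, t, ht, he⟩ | ⟨-, he⟩
          · refine ⟨u, hu, L.flatten, ?_, rfl⟩
            obtain ⟨L', h5, rfl⟩ := ht
            refine ⟨s :: L', ?_, by rw [List.flatten_cons, he]⟩
            intro z hz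
            rcases List.mem_cons.1 hz with h | h
            · rw [h]; exact hs
            · exact h5 z h
          · rw [he]
            exact ⟨u, hu, [], ⟨[], by simp, rfl⟩, rfl⟩
        · exact h4
    · rintro (⟨u, hu, t, ⟨L, hL, rfl⟩, rfl⟩ | ⟨-, rfl⟩)
      · refine ⟨u :: L, ?_, rfl⟩
        intro z hz
        rcases List.mem_cons.1 hz with h | h
        · rw [h]; exact (h3 u).2 (Or.inl hu)
        · exact (h3 z).2 (Or.inl (hL z h))
      · exact ⟨[], by simp, rfl⟩

/-- Rational operations on languages recognised through one map to a group do not raise the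
height. -/
theorem RatOver.sh {h : ℕ} [Finite α] [Finite G] {F : α → G} (hF : MapLe h F)
    {K : Set (List α)} (hK : RatOver F K) : SH h K := by
  classical
  obtain ⟨K0, p, h1, h2, h3⟩ := hK.nf
  have h4 := insr_sh hF h1 h2
  by_cases hp : p
  · refine Eq.mp (congrArg (SH h) ?_) (h4.union SH.eps)
    ext w
    rw [Set.mem_union, Set.mem_singleton_iff, h3]
    simp [hp]
  · refine Eq.mp (congrArg (SH h) ?_) h4
    ext w
    rw [h3]
    simp [hp]

end ins

end Vale.Agent.P329.H647
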