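import Vale.Agent.P329.H157.Wreath

/-!
Counting marks modulo `n` relative to an automaton whose languages have height at most `h`,
and the extension theorem: an abelian extension of an automaton raises the height by at most one.
-/

set_option linter.all false

namespace Vale.Agent.P329.H647

open Vale.Agent.P329 Vale.Agent.P329.H157

section marks

variable {α σ : Type}

/-- every language of words leading from one state to another has height at most `h` -/
def Aut (h : ℕ) (δ : σ → α → σ) : Prop :=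
  ∀ q q' : σ, SH h {u : List α | u.foldl δ q = q'}

variable (δ : σ → α → σ)

/-- words beginning with `a` -/
def hd (a : α) : Set (List α) := {w | ∃ t, w = a :: t}

theorem hd_sh {h : ℕ} (a : α) : SH h (hd a) := by
  refine Eq.mp (congrArg (SH h) ?_) ((SH.single (k := h) a).cat SH.univ)
  ext w
  constructor
  · rintro ⟨u, hu, v, -, rfl⟩
    rw [Set.mem_singleton_iff] at hu
    subst hu
    exact ⟨v, rfl⟩
  · rintro ⟨t, rfl⟩
    exact ⟨[a], rfl, t, trivial, rfl⟩

theorem hd_append {a : α} {u v : List α} (h : u ∈ hd a) : u ++ v ∈ hd a := by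
  obtain ⟨t, rfl⟩ := h
  exact ⟨t ++ v, rfl⟩

theorem hd_ne {a : α} {u : List α} (h : u ∈ hd a) : u ≠ [] := by
  obtain ⟨t, rfl⟩ := h
  exact List.cons_ne_nil _ _

open Classical in
/-- number of marks of kind `p` in the word read from the state `q` -/
noncomputable def cnt (p : σ × α) (q : σ) (w : List α) : ℕ := (ann δ id q w).count p

theorem cnt_nil (p : σ × α) (q : σ) : cnt δ p q [] = 0 := rfl

theorem cnt_append (p : σ × α) (q : σ) (u v : List α) :
    cnt δ p q (u ++ v) = cnt δ p q u + cnt δ p (u.foldl δ q) v := by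
  classical
  unfold cnt
  rw [ann_append, List.count_append]

open Classical in
theorem cnt_cons (p : σ × α) (q : σ) (a : α) (w : List α) :
    cnt δ p q (a :: w) = cnt δ p (δ q a) w + if (q, a) = p then 1 else 0 := by
  unfold cnt
  rw [ann, List.count_cons]
  congr 1
  by_cases h : (q, a) = p
  · rw [if_pos h]
    have : ((id q, a) == p) = true := by simpa using h
    rw [if_pos this]
  · rw [if_neg h]
    have : ¬ ((id q, a) == p) = true := by simpa using h
    rw [if_neg this]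

/-- the words without a mark -/
theorem cnt_eq_zero_iff (m : σ) (a : α) (q : σ) (w : List α) :
    cnt δ (m, a) q w = 0 ↔ ¬ ∃ u t, u.foldl δ q = m ∧ t ∈ hd a ∧ u ++ t = w := by
  induction w generalizing q with
  | nil =>
    refine iff_of_true rfl ?_
    rintro ⟨u, t, -, ht, h⟩
    exact hd_ne ht (List.append_eq_nil_iff.1 h).2
  | cons b w ih =>
    rw [cnt_cons, Nat.add_eq_zero_iff, ih]
    constructor
    · rintro ⟨h1, h2⟩ ⟨u, t, hu, ht, h⟩
      cases u with
      | nil =>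
        rw [List.nil_append] at h
        subst h
        obtain ⟨t', ht'⟩ := ht
        rw [List.cons.injEq] at ht'
        have h3 : (q, b) = (m, a) := by
          rw [← ht'.1]
          exact Prod.ext hu rfl
        rw [if_pos h3] at h2
        exact absurd h2 (by norm_num)
      | cons c u =>
        rw [List.cons_append, List.cons.injEq] at h
        refine h1 ⟨u, t, ?_, ht, h.2⟩
        rw [← hu, List.foldl_cons, h.1]
    · intro hn
      refine ⟨?_, ?_⟩
      · rintro ⟨u, t, hu, ht, h⟩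
        exact hn ⟨b :: u, t, hu, ht, by rw [List.cons_append, h]⟩
      · by_cases h3 : (q, b) = (m, a)
        · exfalso
          rw [Prod.mk.injEq] at h3
          exact hn ⟨[], b :: w, h3.1, ⟨w, by rw [h3.2]⟩, rfl⟩
        · rw [if_neg h3]

/-- from a mark to the end of a loop -/
def Zs (m : σ) (a : α) : Set (List α) := hd a ∩ {z | z.foldl δ m = m}

/-- from a mark to the next one -/
def Ys (m : σ) (a : α) : Set (List α) := Zs δ m a \ cat (Zs δ m a) (Zs δ m a)

/-- from a mark to the end, without a further mark -/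
def Ts (m : σ) (a : α) : Set (List α) := hd a \ cat (Zs δ m a) (hd a)

/-- up to the first mark -/
def Us (q m : σ) (a : α) : Set (List α) :=
  {u | u.foldl δ q = m} \ cat {u | u.foldl δ q = m} (hd a)

theorem cnt_hd {m : σ} {a : α} {t : List α} (ht : t ∈ hd a) : 1 ≤ cnt δ (m, a) m t := by
  obtain ⟨s, rfl⟩ := ht
  rw [cnt_cons, if_pos rfl]
  omega

theorem cnt_hd_one_iff {m : σ} {a : α} {t : List α} (ht : t ∈ hd a) :
    cnt δ (m, a) m t = 1 ↔ ¬ ∃ u v, u ∈ Zs δ m a ∧ v ∈ hd a ∧ u ++ v = t := by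
  obtain ⟨s, rfl⟩ := ht
  rw [cnt_cons, if_pos rfl]
  have h0 : cnt δ (m, a) (δ m a) s + 1 = 1 ↔ cnt δ (m, a) (δ m a) s = 0 := by omega
  rw [h0, cnt_eq_zero_iff]
  refine not_congr ⟨?_, ?_⟩
  · rintro ⟨u, v, hu, hv, h⟩
    exact ⟨a :: u, v, ⟨⟨u, rfl⟩, hu⟩, hv, by rw [List.cons_append, h]⟩
  · rintro ⟨u, v, ⟨⟨u', rfl⟩, hu⟩, hv, h⟩
    rw [List.cons_append, List.cons.injEq] at h
    exact ⟨u', v, hu, hv, h.2⟩

theorem mem_Ts {m : σ} {a : α} {t : List α} :
    t ∈ Ts δ m a ↔ t ∈ hd a ∧ cnt δ (m, a) m t = 1 := by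
  constructor
  · rintro ⟨h1, h2⟩
    refine ⟨h1, (cnt_hd_one_iff δ h1).2 ?_⟩
    rintro ⟨u, v, hu, hv, h⟩
    exact h2 ⟨u, hu, v, hv, h⟩
  · rintro ⟨h1, h2⟩
    refine ⟨h1, ?_⟩
    rintro ⟨u, hu, v, hv, h⟩
    exact (cnt_hd_one_iff δ h1).1 h2 ⟨u, v, hu, hv, h⟩

theorem mem_Ys {m : σ} {a : α} {y : List α} :
    y ∈ Ys δ m a ↔ y ∈ hd a ∧ y.foldl δ m = m ∧ cnt δ (m, a) m y = 1 := by
  constructor
  · rintro ⟨⟨h1, h3⟩, h2⟩
    refine ⟨h1, h3, (cnt_hd_one_iff δ h1).2 ?_⟩
    rintro ⟨u, v, hu, hv, h⟩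
    refine h2 ⟨u, hu, v, ⟨hv, ?_⟩, h⟩
    have h4 : y.foldl δ m = m := h3
    rw [← h, List.foldl_append, show u.foldl δ m = m from hu.2] at h4
    exact h4
  · rintro ⟨h1, h3, h2⟩
    refine ⟨⟨h1, h3⟩, ?_⟩
    rintro ⟨u, hu, v, hv, h⟩
    exact (cnt_hd_one_iff δ h1).1 h2 ⟨u, v, hu, hv.1, h⟩

theorem mem_Us {q m : σ} {a : α} {u : List α} :
    u ∈ Us δ q m a ↔ u.foldl δ q = m ∧ cnt δ (m, a) q u = 0 := by
  rw [cnt_eq_zero_iff]
  constructor
  · rintro ⟨h1, h2⟩
    refine ⟨h1, ?_⟩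
    rintro ⟨x, t, hx, ht, h⟩
    exact h2 ⟨x, hx, t, ht, h⟩
  · rintro ⟨h1, h2⟩
    refine ⟨h1, ?_⟩
    rintro ⟨x, hx, t, ht, h⟩
    exact h2 ⟨x, t, hx, ht, h⟩

/-- powers of a language -/
def pwr (Y : Set (List α)) : ℕ → Set (List α)
  | 0 => {[]}
  | n + 1 => cat Y (pwr Y n)

theorem pwr_sh {h : ℕ} {Y : Set (List α)} (hY : SH h Y) (n : ℕ) : SH h (pwr Y n) := by
  induction n with
  | zero => exact SH.eps
  | succ n ih => exact hY.cat ih

theorem pwr_Ys {m : σ} {a : α} (n : ℕ) {w : List α} (hw : w ∈ pwr (Ys δ m a) n) :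
    w.foldl δ m = m ∧ cnt δ (m, a) m w = n := by
  induction n generalizing w with
  | zero =>
    have : w = [] := hw
    subst this
    exact ⟨rfl, rfl⟩
  | succ n ih =>
    obtain ⟨y, hy, v, hv, rfl⟩ := hw
    rw [mem_Ys] at hy
    obtain ⟨h1, h2⟩ := ih hv
    refine ⟨?_, ?_⟩
    · rw [List.foldl_append, hy.2.1, h1]
    · rw [cnt_append, hy.2.1, hy.2.2, h2, Nat.add_comm]

theorem kst_pwr_Ys {m : σ} {a : α} (n : ℕ) {w : List α}
    (hw : w ∈ kst (pwr (Ys δ m a) n)) :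
    w.foldl δ m = m ∧ n ∣ cnt δ (m, a) m w := by
  obtain ⟨L, hL, rfl⟩ := hw
  induction L with
  | nil => exact ⟨rfl, dvd_zero _⟩
  | cons x L ih =>
    obtain ⟨h1, h2⟩ := ih fun u hu => hL u (List.mem_cons_of_mem _ hu)
    obtain ⟨h3, h4⟩ := pwr_Ys δ n (hL x List.mem_cons_self)
    rw [List.flatten_cons]
    refine ⟨?_, ?_⟩
    · rw [List.foldl_append, h3, h1]
    · rw [cnt_append, h3, h4]
      exact (dvd_refl n).add h2

/-- A word which starts with a mark and has more than one mark splits off a word of `Ys`. -/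
theorem split_first {m : σ} {a : α} {t : List α} (ht : t ∈ hd a) (h1 : cnt δ (m, a) m t ≠ 1) :
    ∃ y v, y ∈ Ys δ m a ∧ v ∈ hd a ∧ y ++ v = t := by
  classical
  have hex : ∃ l, ∃ u v, u ∈ Zs δ m a ∧ v ∈ hd a ∧ u ++ v = t ∧ u.length = l := by
    by_contra hne
    refine h1 ((cnt_hd_one_iff δ ht).2 ?_)
    rintro ⟨u, v, hu, hv, h⟩
    exact hne ⟨_, u, v, hu, hv, h, rfl⟩
  obtain ⟨u, v, hu, hv, h, hl⟩ := Nat.find_spec hex
  refine ⟨u, v, ⟨hu, ?_⟩, hv, h⟩
  rintro ⟨x, hx, y, hy, hxy⟩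
  refine Nat.find_min hex (m := x.length) ?_ ⟨x, y ++ v, hx, hd_append hy.1, ?_, rfl⟩
  · rw [← hl, ← hxy, List.length_append]
    have := List.length_pos_of_ne_nil (hd_ne hy.1)
    omega
  · rw [← List.append_assoc, hxy, h]

theorem pwr_of_cnt {m : σ} {a : α} (k : ℕ) : ∀ {t : List α}, t ∈ hd a →
    cnt δ (m, a) m t = k + 1 → t ∈ cat (pwr (Ys δ m a) k) (Ts δ m a) := by
  induction k with
  | zero =>
    intro t ht h
    exact ⟨[], rfl, t, (mem_Ts δ).2 ⟨ht, h⟩, rfl⟩
  | succ k ih =>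
    intro t ht h
    obtain ⟨y, v, hy, hv, rfl⟩ := split_first δ ht (m := m) (by omega)
    have hy' := (mem_Ys δ).1 hy
    rw [cnt_append, hy'.2.1, hy'.2.2] at h
    obtain ⟨x, hx, z, hz, hxz⟩ := ih hv (by omega)
    exact ⟨y ++ x, ⟨y, hy, x, hx, rfl⟩, z, hz, by rw [List.append_assoc, hxz]⟩

theorem pwr_add (Y : Set (List α)) (i : ℕ) {j : ℕ} {w : List α} (hw : w ∈ pwr Y (i + j)) :
    ∃ u ∈ pwr Y i, ∃ v ∈ pwr Y j, u ++ v = w := by
  induction i generalizing w with
  | zero =>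
    rw [Nat.zero_add] at hw
    exact ⟨[], rfl, w, hw, rfl⟩
  | succ i ih =>
    rw [show i + 1 + j = (i + j) + 1 by omega] at hw
    obtain ⟨y, hy, v, hv, rfl⟩ := hw
    obtain ⟨x, hx, z, hz, rfl⟩ := ih hv
    exact ⟨y ++ x, ⟨y, hy, x, hx, rfl⟩, z, hz, by rw [List.append_assoc]⟩

theorem pwr_mul (Y : Set (List α)) (n i : ℕ) {w : List α} (hw : w ∈ pwr Y (n * i)) :
    w ∈ kst (pwr Y n) := by
  induction i generalizing w with
  | zero =>
    have : w = [] := hw
    subst this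
    exact ⟨[], by simp, rfl⟩
  | succ i ih =>
    rw [Nat.mul_succ, Nat.add_comm] at hw
    obtain ⟨u, hu, v, hv, rfl⟩ := pwr_add Y n hw
    obtain ⟨L, hL, rfl⟩ := ih hv
    refine ⟨u :: L, ?_, rfl⟩
    intro x hx
    rcases List.mem_cons.1 hx with h | h
    · rw [h]; exact hu
    · exact hL x h

/-- the words starting with a mark whose number of marks is `r + 1` modulo `n` -/
theorem tail_eq (m : σ) (a : α) (n r : ℕ) (hn : 0 < n) (hr : r < n) :
    {t : List α | t ∈ hd a ∧ (cnt δ (m, a) m t) % n = (r + 1) % n} =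
      cat (kst (pwr (Ys δ m a) n)) (cat (pwr (Ys δ m a) r) (Ts δ m a)) := by
  ext t
  constructor
  · rintro ⟨ht, h⟩
    have h1 := cnt_hd δ (m := m) ht
    -- write the number as `n * i + r + 1`
    obtain ⟨i, hi⟩ : ∃ i, cnt δ (m, a) m t = n * i + r + 1 := by
      have h2 : (cnt δ (m, a) m t - 1) % n = r := by
        have h3 : (cnt δ (m, a) m t - 1 + 1) % n = (r + 1) % n := by
          rw [Nat.sub_add_cancel h1]; exact h
        have h4 : (cnt δ (m, a) m t - 1) ≡ r [MOD n] := Nat.ModEq.add_right_cancel' 1 h3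
        have h5 : (cnt δ (m, a) m t - 1) % n = r % n := h4
        rw [h5, Nat.mod_eq_of_lt hr]
      refine ⟨(cnt δ (m, a) m t - 1) / n, ?_⟩
      have h6 := Nat.div_add_mod (cnt δ (m, a) m t - 1) n
      rw [h2] at h6
      omega
    obtain ⟨x, hx, z, hz, rfl⟩ := pwr_of_cnt δ (n * i + r) ht hi
    obtain ⟨u, hu, v, hv, rfl⟩ := pwr_add _ _ hx
    exact ⟨u, pwr_mul _ _ _ hu, v ++ z, ⟨v, hv, z, hz, rfl⟩, by rw [List.append_assoc]⟩
  · rintro ⟨u, hu, _, ⟨v, hv, z, hz, rfl⟩, rfl⟩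
    obtain ⟨h1, h2⟩ := kst_pwr_Ys δ n hu
    obtain ⟨h3, h4⟩ := pwr_Ys δ r hv
    obtain ⟨h5, h6⟩ := (mem_Ts δ).1 hz
    refine ⟨?_, ?_⟩
    · -- it begins with `a`
      have hv' : v ++ z ∈ hd a := by
        cases r with
        | zero =>
          have : v = [] := hv
          rw [this]; exact h5
        | succ r =>
          obtain ⟨y, hy, v', -, rfl⟩ := hv
          exact hd_append (hd_append hy.1.1)
      obtain ⟨L, hL, rfl⟩ := hu
      cases L with
      | nil => exact hv'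
      | cons x L =>
        have hx := hL x List.mem_cons_self
        obtain ⟨n', rfl⟩ : ∃ n', n = n' + 1 := ⟨n - 1, by omega⟩
        obtain ⟨y, hy, v', -, rfl⟩ := hx
        rw [List.flatten_cons]
        exact hd_append (hd_append (hd_append hy.1.1))
    · rw [cnt_append, cnt_append, h1, h3, h4, h6]
      obtain ⟨c, hc⟩ := h2
      rw [hc, Nat.mul_add_mod]

/-- the words with `r + 1` marks modulo `n`, at least one -/
theorem some_eq (q m : σ) (a : α) (n r : ℕ) :
    {w : List α | cnt δ (m, a) q w ≠ 0 ∧ (cnt δ (m, a) q w) % n = (r + 1) % n} =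
      cat (Us δ q m a) {t : List α | t ∈ hd a ∧ (cnt δ (m, a) m t) % n = (r + 1) % n} := by
  classical
  ext w
  constructor
  · rintro ⟨h0, h⟩
    have hex : ∃ l, ∃ u t, u.foldl δ q = m ∧ t ∈ hd a ∧ u ++ t = w ∧ u.length = l := by
      by_contra hne
      refine h0 ((cnt_eq_zero_iff δ m a q w).2 ?_)
      rintro ⟨u, t, hu, ht, h⟩
      exact hne ⟨_, u, t, hu, ht, h, rfl⟩
    obtain ⟨u, t, hu, ht, rfl, hl⟩ := Nat.find_spec hex
    have h1 : u ∈ Us δ q m a := by
      refine ⟨hu, ?_⟩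
      rintro ⟨x, hx, y, hy, hxy⟩
      refine Nat.find_min hex (m := x.length) ?_ ⟨x, y ++ t, hx, hd_append hy, ?_, rfl⟩
      · rw [← hl, ← hxy, List.length_append]
        have := List.length_pos_of_ne_nil (hd_ne hy)
        omega
      · rw [← List.append_assoc, hxy]
    have h2 := (mem_Us δ).1 h1
    rw [cnt_append, h2.2, h2.1, Nat.zero_add] at h
    exact ⟨u, h1, t, ⟨ht, h⟩, rfl⟩
  · rintro ⟨u, hu, t, ⟨ht, h⟩, rfl⟩
    rw [mem_Us] at hu
    have h1 := cnt_hd δ (m := m) ht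
    refine ⟨?_, ?_⟩
    · rw [cnt_append, hu.2, hu.1]; omega
    · rw [cnt_append, hu.2, hu.1, Nat.zero_add, h]

/-- Counting marks modulo `n` raises the height by at most one. -/
theorem cnt_sh {h : ℕ} (hA : Aut h δ) (p : σ × α) (q : σ) (n r : ℕ) (hn : 0 < n) :
    SH (h + 1) {w : List α | cnt δ p q w % n = r % n} := by
  obtain ⟨m, a⟩ := p
  have hZ : SH h (Zs δ m a) := (hd_sh a).inter (hA m m)
  have hY : SH h (Ys δ m a) := hZ.diff (hZ.cat hZ)
  have hT : SH h (Ts δ m a) := (hd_sh a).diff (hZ.cat (hd_sh a))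
  have hU : SH h (Us δ q m a) := (hA q m).diff ((hA q m).cat (hd_sh a))
  have h0 : SH h {w : List α | cnt δ (m, a) q w = 0} := by
    refine Eq.mp (congrArg (SH h) ?_) ((hA q m).cat (hd_sh a)).compl
    ext w
    rw [Set.mem_compl_iff, mem_cat]
    change _ ↔ cnt δ (m, a) q w = 0
    rw [cnt_eq_zero_iff]
    refine not_congr ⟨?_, ?_⟩
    · rintro ⟨u, hu, t, ht, h⟩; exact ⟨u, t, hu, ht, h⟩
    · rintro ⟨u, t, hu, ht, h⟩; exact ⟨u, hu, t, ht, h⟩
  have hS : ∀ s, s < n → SH (h + 1)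
      {w : List α | cnt δ (m, a) q w ≠ 0 ∧ (cnt δ (m, a) q w) % n = (s + 1) % n} := by
    intro s hs
    rw [some_eq, tail_eq δ m a n s hn hs]
    exact (hU.mono (Nat.le_succ h)).cat ((pwr_sh hY n).kst.cat
      (((pwr_sh hY s).cat hT).mono (Nat.le_succ h)))
  -- choose the residue `s`
  obtain ⟨s, hs, hsr⟩ : ∃ s, s < n ∧ (s + 1) % n = r % n := by
    refine ⟨(r % n + (n - 1)) % n, Nat.mod_lt _ hn, ?_⟩
    rw [Nat.mod_add_mod, Nat.add_assoc, Nat.sub_add_cancel hn, Nat.add_mod_right, Nat.mod_mod]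
  have h1 := hS s hs
  by_cases hr : r % n = 0
  · refine Eq.mp (congrArg (SH (h + 1)) ?_) ((h0.mono (Nat.le_succ h)).union h1)
    ext w
    constructor
    · rintro (hw | ⟨-, hw⟩)
      · change cnt δ (m, a) q w % n = r % n
        rw [show cnt δ (m, a) q w = 0 from hw, Nat.zero_mod, hr]
      · exact hw.trans hsr
    · intro hw
      by_cases hc : cnt δ (m, a) q w = 0
      · exact Or.inl hc
      · exact Or.inr ⟨hc, Eq.trans hw hsr.symm⟩
  · refine Eq.mp (congrArg (SH (h + 1)) ?_) h1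
    ext w
    constructor
    · rintro ⟨-, hw⟩
      exact hw.trans hsr
    · intro hw
      refine ⟨?_, Eq.trans hw hsr.symm⟩
      intro hc
      apply hr
      rw [← show cnt δ (m, a) q w % n = r % n from hw, hc, Nat.zero_mod]

end marks

end Vale.Agent.P329.H647
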