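import Vale.Agent.P329.H647.Quo
import Mathlib.Data.Set.Card
import Mathlib.Data.Fintype.BigOperators

/-!
The modular product of two languages of height at most `h` has height at most `h + 1`.
-/

set_option linter.all false

namespace Vale.Agent.P329.H647

open Vale.Agent.P329 Vale.Agent.P329.H157

section modp

variable {α σ τ : Type}

/-- factorisations around a letter -/
def FS (A B : List α → Prop) (a : α) (w : List α) : Set (List α × List α) :=
  {x | A x.1 ∧ B x.2 ∧ x.1 ++ a :: x.2 = w}

theorem FS_finite (A B : List α → Prop) (a : α) (w : List α) : (FS A B a w).Finite := by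
  refine (Set.finite_range fun i : Fin (w.length + 1) => (w.take i.1, w.drop (i.1 + 1))).subset ?_
  rintro ⟨x, y⟩ ⟨-, -, h⟩
  have h' : x ++ a :: y = w := h
  subst h'
  refine ⟨⟨x.length, by simp⟩, ?_⟩
  refine Prod.ext ?_ ?_
  · change (x ++ a :: y).take x.length = x
    exact List.take_left' rfl
  · change (x ++ a :: y).drop (x.length + 1) = y
    have e : x ++ a :: y = (x ++ [a]) ++ y := by simp
    rw [e]
    exact List.drop_left' (by simp)

theorem FS_nil (A B : List α → Prop) (a : α) : FS A B a [] = ∅ := by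
  ext x
  refine ⟨fun h => ?_, fun h => h.elim⟩
  have h1 := h.2.2
  exact absurd h1 (by simp)

open Classical in
theorem FS_cons (A B : List α → Prop) (a b : α) (w : List α) :
    (FS A B a (b :: w)).ncard = (FS (fun x => A (b :: x)) B a w).ncard +
      if A [] ∧ b = a ∧ B w then 1 else 0 := by
  have h1 : ((fun x : List α × List α => (b :: x.1, x.2)) ''
      FS (fun x => A (b :: x)) B a w).ncard = (FS (fun x => A (b :: x)) B a w).ncard := by
    apply Set.ncard_image_of_injective
    rintro ⟨x, y⟩ ⟨x', y'⟩ h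
    have h2 : (b :: x, y) = (b :: x', y') := h
    rw [Prod.mk.injEq, List.cons.injEq] at h2
    rw [h2.1.2, h2.2]
  by_cases h : A [] ∧ b = a ∧ B w
  · rw [if_pos h, ← h1]
    have h2 : FS A B a (b :: w) = insert ([], w) ((fun x : List α × List α => (b :: x.1, x.2)) ''
        FS (fun x => A (b :: x)) B a w) := by
      ext ⟨x, y⟩
      constructor
      · rintro ⟨hA, hB, he⟩
        cases x with
        | nil =>
          left
          have he' : a :: y = b :: w := he
          rw [List.cons.injEq] at he'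
          rw [he'.2]
        | cons c x =>
          right
          have he' : c :: (x ++ a :: y) = b :: w := he
          rw [List.cons.injEq] at he'
          obtain ⟨rfl, he'⟩ := he'
          exact ⟨(x, y), ⟨hA, hB, he'⟩, rfl⟩
      · rintro (h3 | ⟨⟨x', y'⟩, ⟨hA, hB, he⟩, h3⟩)
        · rw [Prod.mk.injEq] at h3
          obtain ⟨rfl, rfl⟩ := h3
          exact ⟨h.1, h.2.2, by rw [h.2.1]; rfl⟩
        · have h4 : (b :: x', y') = (x, y) := h3
          rw [Prod.mk.injEq] at h4
          obtain ⟨rfl, rfl⟩ := h4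
          refine ⟨hA, hB, ?_⟩
          change b :: (x' ++ a :: y') = b :: w
          rw [show x' ++ a :: y' = w from he]
    rw [h2]
    apply Set.ncard_insert_of_notMem
    · rintro ⟨⟨x', y'⟩, -, h3⟩
      have h4 : (b :: x', y') = (([] : List α), w) := h3
      rw [Prod.mk.injEq] at h4
      exact absurd h4.1 (List.cons_ne_nil _ _)
    · exact (FS_finite _ _ _ _).image _
  · rw [if_neg h, ← h1, Nat.add_zero]
    congr 1
    ext ⟨x, y⟩
    constructor
    · rintro ⟨hA, hB, he⟩
      cases x with
      | nil =>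
        have he' : a :: y = b :: w := he
        rw [List.cons.injEq] at he'
        exact absurd ⟨hA, he'.1.symm, by rw [← he'.2]; exact hB⟩ h
      | cons c x =>
        have he' : c :: (x ++ a :: y) = b :: w := he
        rw [List.cons.injEq] at he'
        obtain ⟨rfl, he'⟩ := he'
        exact ⟨(x, y), ⟨hA, hB, he'⟩, rfl⟩
    · rintro ⟨⟨x', y'⟩, ⟨hA, hB, he⟩, h3⟩
      have h4 : (b :: x', y') = (x, y) := h3
      rw [Prod.mk.injEq] at h4
      obtain ⟨rfl, rfl⟩ := h4
      refine ⟨hA, hB, ?_⟩
      change b :: (x' ++ a :: y') = b :: w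
      rw [show x' ++ a :: y' = w from he]

open Classical in
theorem FS_sum [Fintype σ] [Fintype τ] (δ : σ → α → σ) (ε : α → τ → τ) (F : σ → Prop)
    (F' : τ → Prop) (a : α) (p : τ) (w : List α) : ∀ q : σ,
    (FS (fun x => F (x.foldl δ q)) (fun y => F' (y.foldr ε p)) a w).ncard =
      ∑ mn : σ × τ, if F mn.1 ∧ F' mn.2 then cn δ ε mn.1 a mn.2 p q w else 0 := by
  induction w with
  | nil =>
    intro q
    rw [FS_nil, Set.ncard_empty]
    symm
    apply Finset.sum_eq_zero
    intro mn _
    rw [cn_nil, ite_self]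
  | cons b w ih =>
    intro q
    rw [FS_cons]
    have h1 := ih (δ q b)
    simp only [List.foldl_cons, List.foldl_nil]
    rw [h1]
    have h2 : ∀ mn : σ × τ, (if F mn.1 ∧ F' mn.2 then cn δ ε mn.1 a mn.2 p q (b :: w) else 0) =
        (if F mn.1 ∧ F' mn.2 then cn δ ε mn.1 a mn.2 p (δ q b) w else 0) +
        (if mn = (q, w.foldr ε p) then (if F q ∧ b = a ∧ F' (w.foldr ε p) then 1 else 0) else 0) := by
      rintro ⟨m, n⟩
      rw [cn_cons]
      change (if F m ∧ F' n then _ else 0) = (if F m ∧ F' n then _ else 0) + _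
      by_cases hmn : (m, n) = (q, w.foldr ε p)
      · rw [if_pos hmn]
        rw [Prod.mk.injEq] at hmn
        obtain ⟨rfl, rfl⟩ := hmn
        by_cases hF : F m ∧ F' (w.foldr ε p)
        · rw [if_pos hF, if_pos hF]
          congr 1
          by_cases hb : b = a
          · rw [if_pos ⟨rfl, hb, rfl⟩, if_pos ⟨hF.1, hb, hF.2⟩]
          · rw [if_neg fun h => hb h.2.1, if_neg fun h => hb h.2.1]
        · rw [if_neg hF, if_neg hF, if_neg fun h => hF ⟨h.1, h.2.2⟩]
      · rw [if_neg hmn, Nat.add_zero]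
        by_cases hF : F m ∧ F' n
        · rw [if_pos hF, if_pos hF, if_neg, Nat.add_zero]
          rintro ⟨h3, -, h4⟩
          exact hmn (by rw [h3, h4])
        · rw [if_neg hF, if_neg hF]
    rw [Finset.sum_congr rfl fun mn _ => h2 mn, Finset.sum_add_distrib, Finset.sum_ite_eq',
      if_pos (Finset.mem_univ _)]
    congr

/-- sums of counting functions -/
theorem sum_sh {k n : ℕ} (hn : 0 < n) {ι : Type} (s : Finset ι) (c : ι → List α → ℕ)
    (hc : ∀ i ∈ s, ∀ r, SH k {w : List α | c i w % n = r % n}) (r : ℕ) :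
    SH k {w : List α | (∑ i ∈ s, c i w) % n = r % n} := by
  classical
  induction s using Finset.induction_on generalizing r with
  | empty =>
    by_cases h : 0 % n = r % n
    · refine Eq.mp (congrArg (SH k) ?_) (SH.univ (k := k) (α := α))
      ext w
      exact ⟨fun _ => by rw [Set.mem_ofPred_eq, Finset.sum_empty]; exact h, fun _ => trivial⟩
    · refine Eq.mp (congrArg (SH k) ?_) (SH.empty (k := k) (α := α))
      ext w
      refine ⟨fun h' => h'.elim, fun h' => ?_⟩
      rw [Set.mem_ofPred_eq, Finset.sum_empty] at h'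
      exact absurd h' h
  | insert i s hi ih =>
    have h1 : SH k (⋃ st : Fin n × Fin n, ⋃ _ : (st.1.1 + st.2.1) % n = r % n,
        ({w : List α | c i w % n = st.1.1 % n} ∩
          {w : List α | (∑ i ∈ s, c i w) % n = st.2.1 % n})) :=
      SH.iUnion fun st => SH.iUnion_prop fun _ =>
        (hc i (Finset.mem_insert_self _ _) _).inter
          (ih (fun j hj => hc j (Finset.mem_insert_of_mem hj)) _)
    refine Eq.mp (congrArg (SH k) ?_) h1
    ext w
    simp only [Set.mem_iUnion, exists_prop]
    rw [Set.mem_ofPred_eq, Finset.sum_insert hi]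
    constructor
    · rintro ⟨st, h2, h3, h4⟩
      have h3' : c i w % n = st.1.1 % n := h3
      have h4' : (∑ i ∈ s, c i w) % n = st.2.1 % n := h4
      rw [Nat.add_mod, h3', h4', ← Nat.add_mod]
      exact h2
    · intro h2
      refine ⟨(⟨c i w % n, Nat.mod_lt _ hn⟩, ⟨(∑ i ∈ s, c i w) % n, Nat.mod_lt _ hn⟩), ?_, ?_, ?_⟩
      · change (c i w % n + (∑ i ∈ s, c i w) % n) % n = r % n
        rw [← Nat.add_mod]
        exact h2
      · change c i w % n = c i w % n % n
        rw [Nat.mod_mod]
      · change (∑ i ∈ s, c i w) % n = (∑ i ∈ s, c i w) % n % n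
        rw [Nat.mod_mod]

/-- The modular product raises the height by at most one. -/
theorem modprod {h : ℕ} {K K' : Set (List α)} (hK : SH h K) (hK' : SH h K') (a : α) (n r : ℕ)
    (hn : 0 < n) :
    SH (h + 1) {w : List α | Set.ncard {x : List α × List α |
      x.1 ∈ K ∧ x.2 ∈ K' ∧ x.1 ++ a :: x.2 = w} % n = r % n} := by
  classical
  let R : Set (List α) := {w | w.reverse ∈ K'}
  have hR : SH h R := H62.SH.rev hK'
  have h1 := qs_finite hK
  have h2 := qs_finite hR
  have := Fintype.ofFinite (QS K)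
  have := Fintype.ofFinite (QS R)
  let ε : α → QS R → QS R := fun b p => qd R p b
  have hrev : ∀ (u : List α) (p : QS R), u.foldr ε p = u.reverse.foldl (qd R) p := by
    intro u p
    rw [List.foldl_reverse]
  have hB : ∀ p p' : QS R, SH h {u : List α | u.foldr ε p = p'} := by
    intro p p'
    refine Eq.mp (congrArg (SH h) ?_) (H62.SH.rev (qs_aut hR p p'))
    ext u
    rw [Set.mem_ofPred_eq, Set.mem_ofPred_eq, Set.mem_ofPred_eq, hrev]
  have h3 := sum_sh (k := h + 1) hn (Finset.univ : Finset (QS K × QS R))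
    (fun mn w => if [] ∈ mn.1.1 ∧ [] ∈ mn.2.1 then
      cn (qd K) ε mn.1 a mn.2 (q0 R) (q0 K) w else 0) (by
      intro mn _ r
      by_cases hm : [] ∈ mn.1.1 ∧ [] ∈ mn.2.1
      · simp only [if_pos hm]
        exact cn_sh (qd K) ε mn.1 a mn.2 (qs_aut hK) hB _ _ n r hn
      · simp only [if_neg hm]
        by_cases h0 : 0 % n = r % n
        · refine Eq.mp (congrArg (SH (h + 1)) ?_) (SH.univ (k := h + 1) (α := α))
          ext w
          exact ⟨fun _ => h0, fun _ => trivial⟩
        · refine Eq.mp (congrArg (SH (h + 1)) ?_) (SH.empty (k := h + 1) (α := α))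
          ext w
          exact ⟨fun h' => h'.elim, fun h' => absurd h' h0⟩) r
  refine Eq.mp (congrArg (SH (h + 1)) ?_) h3
  ext w
  rw [Set.mem_ofPred_eq, Set.mem_ofPred_eq]
  have h4 := FS_sum (qd K) ε (fun Q => [] ∈ Q.1) (fun Q => [] ∈ Q.1) a (q0 R) w (q0 K)
  have h5 : (FS (fun x => [] ∈ (x.foldl (qd K) (q0 K)).1)
      (fun y => [] ∈ (y.foldr ε (q0 R)).1) a w) =
      {x : List α × List α | x.1 ∈ K ∧ x.2 ∈ K' ∧ x.1 ++ a :: x.2 = w} := by
    ext x
    change (([] ∈ (x.1.foldl (qd K) (q0 K)).1) ∧ ([] ∈ (x.2.foldr ε (q0 R)).1) ∧ _) ↔ _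
    rw [qd_mem, hrev, qd_mem]
    change (x.1 ∈ K ∧ x.2.reverse.reverse ∈ K' ∧ _) ↔ _
    rw [List.reverse_reverse]
    rfl
  rw [← h5, h4]

end modp

end Vale.Agent.P329.H647
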