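import Vale.Agent.P329.R3.H96.Perm

/-!
Direct products of any level; groups whose permutation constituents have degree at most `n`.
-/

set_option linter.all false

namespace Vale.Agent.P329.H647

open Vale.Agent.P329 Vale.Agent.P329.H157 Vale.Agent.P329.H96

section prods

/-- Direct products. -/
theorem pi_all {h : ℕ} {α : Type} [Finite α] {ι : Type} [Finite ι] {H : ι → Type}
    [∀ i, Group (H i)] [∀ i, Finite (H i)] {F : α → ∀ i, H i}
    (hF : ∀ i, MapLe h fun x => F x i) : MapLe h F := by
  intro S
  have h1 : SH h (⋃ g : ∀ i, H i, ⋃ _ : g ∈ S, ⋂ i, {w : List α |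
      (w.map fun x => F x i).prod ∈ ({g i} : Set (H i))}) :=
    SH.iUnion fun g => SH.iUnion_prop fun _ => SH.iInter fun i => hF i {g i}
  have h2 : ∀ (w : List α) (i : ι), (w.map F).prod i = (w.map fun x => F x i).prod := by
    intro w i
    induction w with
    | nil => rfl
    | cons a w ih => rw [List.map_cons, List.prod_cons, Pi.mul_apply, ih, List.map_cons,
        List.prod_cons]
  refine Eq.mp (congrArg (SH h) ?_) h1
  ext w
  simp only [Set.mem_iUnion, Set.mem_iInter, exists_prop]
  change (∃ g ∈ S, ∀ i, (w.map fun x => F x i).prod = g i) ↔ (w.map F).prod ∈ S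
  constructor
  · rintro ⟨g, hg, h3⟩
    have h4 : (w.map F).prod = g := by
      funext i
      rw [h2, h3]
    rw [h4]; exact hg
  · intro h3
    exact ⟨_, h3, fun i => (h2 w i).symm⟩

/-- Groups with a homomorphism to a power of the symmetric group on `n` points whose kernel is
solvable. -/
theorem perm_pow {n k : ℕ} (hn : 4 ≤ n) {ι : Type} [Finite ι] {G : Type} [Group G] [Finite G]
    (π : G →* (ι → Equiv.Perm (Fin n))) (hk : derivedSeries π.ker k = ⊥) {α : Type} [Finite α]
    (F : α → G) : MapLe (n - 3 + k) F := by
  refine MapLe.solv π.ker hk F ?_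
  refine MapLe.inj (QuotientGroup.kerLift π) (QuotientGroup.kerLift_injective π) ?_
  refine pi_all fun i => ?_
  have h1 : Recog (n - 3) (Equiv.Perm (Fin n)) := perm_le hn (MonoidHom.id _) fun x y h => h
  intro S
  exact h1 α (fun x => π (F x) i) S

end prods

end Vale.Agent.P329.H647
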