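import Vale.Agent.P329.R2.H162.Str
import Vale.Agent.P329.H259.Base

/-!
Regular languages which allow the repetition of factors with idempotent value.
-/

set_option linter.all false

namespace Vale.Agent.P329.H647

open Vale.Agent.P329 Vale.Agent.P329.H96

theorem pump_sh {h : ℕ} {α N : Type} [Finite α] [Monoid N] [Finite N] {F : α → N}
    (hF : MapLe h F) {K : Set (List α)} (hK : ∃ m, HeightLe m K)
    (hI : ∀ x v y : List α, (v.map F).prod * (v.map F).prod = (v.map F).prod →
      x ++ v ++ y ∈ K → x ++ v ++ v ++ y ∈ K) : HeightLe h K := by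
  obtain ⟨m, e, -, rfl⟩ := hK
  obtain ⟨M, iM, fM, f, hf, hk⟩ := (H259.FQ.lang e).monoid
  have hw : ∀ w : List α, (w.map fun a => f [a]).prod = f w := by
    intro w
    induction w with
    | nil => exact hf.1.symm
    | cons a w ih =>
      rw [List.map_cons, List.prod_cons, ih, ← hf.2]
      rfl
  have hins : ∀ (v : List α), (v.map F).prod * (v.map F).prod = (v.map F).prod →
      ∀ (n j : ℕ) (x y : List α), x ++ H259.pw v (n + 1) ++ y ∈ e.lang →
        x ++ H259.pw v (n + 1 + j) ++ y ∈ e.lang := by
    intro v hv n j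
    induction j with
    | zero => intro x y h; exact h
    | succ j ih =>
      intro x y h
      have h1 := ih x y h
      have e1 : x ++ H259.pw v (n + 1 + j) ++ y = x ++ v ++ (H259.pw v (n + j) ++ y) := by
        rw [show n + 1 + j = (n + j) + 1 by omega, H259.pw_succ]; simp
      rw [e1] at h1
      have h2 := hI x v _ hv h1
      have e2 : x ++ H259.pw v (n + 1 + (j + 1)) ++ y =
          x ++ v ++ v ++ (H259.pw v (n + j) ++ y) := by
        rw [show n + 1 + (j + 1) = ((n + j) + 1) + 1 by omega, H259.pw_succ, H259.pw_succ]; simp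
      rw [e2]
      exact h2
  obtain ⟨n, hn, hexp⟩ := H259.exists_exp M
  obtain ⟨n', rfl⟩ : ∃ n', n = n' + 1 := ⟨n - 1, by omega⟩
  have h1 := H162.Str.straubing F hF (fun a => f [a]) (fun v _ hv => by
    refine ⟨n' + 1, ?_⟩
    rw [hw]
    rw [← hf.pw, ← hf.pw, hk]
    intro x y
    constructor
    · intro h2
      have h3 := hins v hv (n' + 1) n' x y h2
      have e3 : n' + 1 + 1 + n' = (n' + 1) + (n' + 1) := by omega
      rw [e3] at h3
      have h5 : f (H259.pw v ((n' + 1) + (n' + 1))) = f (H259.pw v (n' + 1)) := by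
        rw [H259.pw_add, hf.2, hf.pw]
        exact hexp _
      exact ((hk _ _).1 h5 x y).1 h3
    · intro h2
      exact hins v hv n' 1 x y h2) {m | ∃ w ∈ e.lang, f w = m}
  refine Eq.mp (congrArg (SH h) ?_) h1
  ext w
  change (∃ w' ∈ e.lang, f w' = (w.map fun a => f [a]).prod) ↔ w ∈ e.lang
  rw [hw]
  constructor
  · rintro ⟨w', hw', he⟩
    have h2 := ((hk _ _).1 he [] []).1 (by simpa using hw')
    simpa using h2
  · intro h2
    exact ⟨w, h2, rfl⟩

end Vale.Agent.P329.H647
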