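import Vale.Agent.P329.H647.Cut
import Vale.Agent.P329.H62.Rev

/-!
Quotients of languages of height at most `h`; the quotient automaton.
-/

set_option linter.all false

namespace Vale.Agent.P329.H647

open Vale.Agent.P329 Vale.Agent.P329.H157

section quo

variable {α : Type}

theorem lq_letter (b : α) (e : GRE α) : SH e.height {w | b :: w ∈ e.lang} := by
  classical
  induction e with
  | zero =>
    refine Eq.mp (congrArg (SH _) ?_) (SH.empty (α := α))
    ext w
    exact ⟨fun h => h.elim, fun h => h.elim⟩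
  | one =>
    refine Eq.mp (congrArg (SH _) ?_) (SH.empty (α := α))
    ext w
    refine ⟨fun h => h.elim, fun h => ?_⟩
    have h1 : b :: w = [] := h
    cases h1
  | letter a =>
    by_cases hb : b = a
    · subst hb
      refine Eq.mp (congrArg (SH _) ?_) (SH.eps (α := α))
      ext w
      change w = [] ↔ b :: w = [b]
      rw [List.cons.injEq]
      exact ⟨fun h => ⟨rfl, h⟩, fun h => h.2⟩
    · refine Eq.mp (congrArg (SH _) ?_) (SH.empty (α := α))
      ext w
      refine ⟨fun h => h.elim, fun h => ?_⟩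
      have h1 : b :: w = [a] := h
      rw [List.cons.injEq] at h1
      exact (hb h1.1).elim
  | union e f ih1 ih2 =>
    exact (ih1.mono (le_max_left _ _)).union (ih2.mono (le_max_right _ _))
  | concat e f ih1 ih2 =>
    have hf : SH (max e.height f.height) f.lang := ⟨f, le_max_right _ _, rfl⟩
    have h1 : SH (max e.height f.height) (cat {w | b :: w ∈ e.lang} f.lang) :=
      (ih1.mono (le_max_left _ _)).cat hf
    have h2 : SH (max e.height f.height) (⋃ _ : [] ∈ e.lang, {w | b :: w ∈ f.lang}) :=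
      SH.iUnion_prop fun _ => ih2.mono (le_max_right _ _)
    refine Eq.mp (congrArg (SH _) ?_) (h1.union h2)
    ext w
    rw [Set.mem_union, Set.mem_iUnion]
    constructor
    · rintro (⟨u, hu, v, hv, rfl⟩ | ⟨he, hw⟩)
      · exact ⟨b :: u, hu, v, hv, rfl⟩
      · exact ⟨[], he, b :: w, hw, rfl⟩
    · rintro ⟨u, hu, v, hv, huv⟩
      cases u with
      | nil =>
        right
        rw [List.nil_append] at huv
        subst huv
        exact ⟨hu, hv⟩
      | cons c u =>
        left
        rw [List.cons_append, List.cons.injEq] at huv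
        obtain ⟨rfl, rfl⟩ := huv
        exact ⟨u, hu, v, hv, rfl⟩
  | compl e ih => exact ih.compl
  | star e ih =>
    have h1 : SH (e.height + 1) (cat {w | b :: w ∈ e.lang} (kst e.lang)) :=
      (ih.mono (Nat.le_succ _)).cat (SH.kst ⟨e, le_refl _, rfl⟩)
    refine Eq.mp (congrArg (SH _) ?_) h1
    ext w
    change _ ↔ b :: w ∈ H259.kst e.lang
    rw [H259.kst_cons_iff]
    constructor
    · rintro ⟨u, hu, v, hv, rfl⟩
      exact ⟨u, v, hu, hv, rfl⟩
    · rintro ⟨u, v, hu, hv, rfl⟩
      exact ⟨u, hu, v, hv, rfl⟩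

/-- left quotients -/
theorem SH.lquo {h : ℕ} {L : Set (List α)} (hL : SH h L) (x : List α) :
    SH h {w | x ++ w ∈ L} := by
  induction x generalizing L with
  | nil => exact hL
  | cons b x ih =>
    have h1 : SH h {w | b :: w ∈ L} := by
      obtain ⟨e, he, rfl⟩ := hL
      exact (lq_letter b e).mono he
    exact ih h1

/-- right quotients -/
theorem SH.rquo {h : ℕ} {L : Set (List α)} (hL : SH h L) (y : List α) :
    SH h {w | w ++ y ∈ L} := by
  have h1 := SH.lquo (H62.SH.rev hL) y.reverse
  have h2 := H62.SH.rev h1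
  refine Eq.mp (congrArg (SH h) ?_) h2
  ext w
  change (y.reverse ++ w.reverse).reverse ∈ L ↔ w ++ y ∈ L
  rw [List.reverse_append, List.reverse_reverse, List.reverse_reverse]

/-- The states of the quotient automaton. -/
def QS (K : Set (List α)) : Type := {Q : Set (List α) // ∃ x, H259.lq K x = Q}

/-- Transitions of the quotient automaton. -/
def qd (K : Set (List α)) (Q : QS K) (b : α) : QS K :=
  ⟨H259.lq Q.1 [b], by
    obtain ⟨x, hx⟩ := Q.2
    exact ⟨x ++ [b], by rw [← hx, H259.lq_lq]⟩⟩

/-- The initial state. -/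
def q0 (K : Set (List α)) : QS K := ⟨K, [], H259.lq_nil K⟩

theorem qd_run (K : Set (List α)) (w : List α) : ∀ Q : QS K,
    (w.foldl (qd K) Q).1 = H259.lq Q.1 w := by
  induction w with
  | nil => intro Q; exact (H259.lq_nil _).symm
  | cons b w ih =>
    intro Q
    rw [List.foldl_cons, ih]
    change H259.lq (H259.lq Q.1 [b]) w = _
    rw [H259.lq_lq]
    rfl

theorem qd_mem (K : Set (List α)) (w : List α) :
    [] ∈ (w.foldl (qd K) (q0 K)).1 ↔ w ∈ K := by
  rw [qd_run]
  change w ++ [] ∈ K ↔ w ∈ K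
  rw [List.append_nil]

theorem qs_finite {h : ℕ} {K : Set (List α)} (hK : SH h K) : Finite (QS K) := by
  have h1 : (Set.range (H259.lq K)).Finite := SH.fq hK
  exact h1.to_subtype

theorem qs_aut {h : ℕ} {K : Set (List α)} (hK : SH h K) : Aut h (qd K) := by
  classical
  have := qs_finite hK
  intro Q Q'
  have hQ : SH h Q.1 := by
    obtain ⟨x, hx⟩ := Q.2
    rw [← hx]
    exact SH.lquo hK x
  have hv : ∀ Z : QS K, ∃ v : List α, Z ≠ Q' → ¬ (v ∈ Z.1 ↔ v ∈ Q'.1) := by
    intro Z
    by_cases hZ : Z = Q'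
    · exact ⟨[], fun h => absurd hZ h⟩
    · by_contra hne
      push Not at hne
      apply hZ
      apply Subtype.ext
      ext v
      exact (hne v).2
  choose v hv using hv
  have h1 : SH h (⋂ Z : QS K, {u : List α | (u ++ v Z ∈ Q.1 ↔ v Z ∈ Q'.1)}) := by
    refine SH.iInter fun Z => ?_
    have h2 := SH.rquo hQ (v Z)
    by_cases h3 : v Z ∈ Q'.1
    · refine Eq.mp (congrArg (SH h) ?_) h2
      ext u
      exact ⟨fun h => ⟨fun _ => h3, fun _ => h⟩, fun h => h.2 h3⟩
    · refine Eq.mp (congrArg (SH h) ?_) h2.compl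
      ext u
      exact ⟨fun h => ⟨fun h' => absurd h' h, fun h' => absurd h' h3⟩, fun h h' => h3 (h.1 h')⟩
  refine Eq.mp (congrArg (SH h) ?_) h1
  ext u
  rw [Set.mem_iInter]
  change (∀ Z : QS K, (u ++ v Z ∈ Q.1 ↔ v Z ∈ Q'.1)) ↔ u.foldl (qd K) Q = Q'
  constructor
  · intro hu
    by_contra hne
    apply hv _ hne
    rw [qd_run]
    exact hu _
  · intro hu Z
    rw [← hu, qd_run]
    rfl

end quo

end Vale.Agent.P329.H647
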