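import Vale.Agent.P329.H647.Ext
import Mathlib.GroupTheory.GroupAction.Quotient

/-!
Coordinates in a solvable group; automata with a solvable group of automorphisms.
-/

set_option linter.all false

namespace Vale.Agent.P329.H647

open Vale.Agent.P329 Vale.Agent.P329.H157

section symm

variable {α σ : Type}

/-- the cascade with a group coordinate -/
def gc {G : Type} [Group G] (δ : σ → α → σ) (c : σ → α → G) : σ × G → α → σ × G :=
  fun x a => (δ x.1 a, x.2 * c x.1 a)

/-- Group coordinates: an abelian kernel raises the height by at most one. -/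
theorem gc_ext {h : ℕ} [Finite σ] [Finite α] {δ : σ → α → σ} {G Q : Type} [Group G] [Finite G]
    [Group Q] [Finite Q] (π : G →* Q) (hab : ∀ x y : G, π x = 1 → π y = 1 → x * y = y * x)
    (c : σ → α → G) (hQ : Aut h (gc δ fun s a => π (c s a))) : Aut (h + 1) (gc δ c) := by
  classical
  letI : CommGroup π.ker :=
    { (inferInstance : Group π.ker) with
      mul_comm := fun x y => Subtype.ext (hab x.1 y.1 x.2 y.2) }
  let s : Q → G := fun q => if hq : ∃ g, π g = q then hq.choose else 1
  have hs : ∀ g, π (s (π g)) = π g := by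
    intro g
    have hq : ∃ g', π g' = π g := ⟨g, rfl⟩
    change π (if hq : ∃ g', π g' = π g then hq.choose else 1) = π g
    rw [dif_pos hq]
    exact hq.choose_spec
  let d : (σ × Q) × α → π.ker := fun x =>
    if hx : s x.1.2 * c x.1.1 x.2 * (s (x.1.2 * π (c x.1.1 x.2)))⁻¹ ∈ π.ker then
      ⟨s x.1.2 * c x.1.1 x.2 * (s (x.1.2 * π (c x.1.1 x.2)))⁻¹, hx⟩ else 1
  have hd : ∀ (t : σ) (g : G) (a : α), ((d ((t, π g), a) : π.ker) : G) =
      s (π g) * c t a * (s (π g * π (c t a)))⁻¹ := by
    intro t g a
    have hx : s (π g) * c t a * (s (π g * π (c t a)))⁻¹ ∈ π.ker := by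
      rw [MonoidHom.mem_ker, map_mul, map_mul, map_inv, hs g, ← map_mul π g (c t a),
        hs (g * c t a), map_mul]
      group
    change ((if hx : s (π g) * c t a * (s (π g * π (c t a)))⁻¹ ∈ π.ker then
      (⟨s (π g) * c t a * (s (π g * π (c t a)))⁻¹, hx⟩ : π.ker) else 1 : π.ker) : G) = _
    rw [dif_pos hx]
  have h1 := Aut.casc_abelian hQ d
  refine h1.image {x | ∃ g, π g = x.1.2} (fun x => (x.1.1, (x.2 : G) * s x.1.2)) ?_ ?_ ?_
  · rintro ⟨⟨t, q⟩, v⟩ ⟨g, hg⟩ a
    have hg' : π g = q := hg
    subst hg'
    exact ⟨g * c t a, map_mul _ _ _⟩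
  · rintro ⟨⟨t, q⟩, v⟩ ⟨g, hg⟩ a
    have hg' : π g = q := hg
    subst hg'
    change (δ t a, ((v * d ((t, π g), a) : π.ker) : G) * s (π g * π (c t a))) =
      (δ t a, (v : G) * s (π g) * c t a)
    rw [Subgroup.coe_mul, hd]
    congr 1
    group
  · rintro ⟨t, g⟩
    have hv : g * (s (π g))⁻¹ ∈ π.ker := by
      rw [MonoidHom.mem_ker, map_mul, map_inv, hs, mul_inv_cancel]
    refine ⟨((t, π g), ⟨g * (s (π g))⁻¹, hv⟩), ⟨g, rfl⟩, ?_⟩
    change (t, g * (s (π g))⁻¹ * s (π g)) = (t, g)
    rw [inv_mul_cancel_right]

/-- A coordinate in a solvable group of derived length at most `k` raises the height by at most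
`k`. -/
theorem gc_solv {h k : ℕ} [Finite σ] [Finite α] {δ : σ → α → σ} (hA : Aut h δ) {G : Type}
    [Group G] [Finite G] (hk : derivedSeries G k = ⊥) (c : σ → α → G) :
    Aut (h + k) (gc δ c) := by
  have key : ∀ i, Aut (h + i) (gc δ fun s a => ((c s a : G) : G ⧸ derivedSeries G i)) := by
    intro i
    induction i with
    | zero =>
      have hsub : Subsingleton (G ⧸ derivedSeries G 0) := by
        rw [derivedSeries_zero]
        exact QuotientGroup.subsingleton_quotient_top
      refine hA.image Set.univ (fun t => (t, 1)) (fun _ _ _ => trivial) (fun t _ a => ?_)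
        (fun x => ⟨x.1, trivial, ?_⟩)
      · exact Prod.ext rfl (Subsingleton.elim _ _)
      · exact Prod.ext rfl (Subsingleton.elim _ _)
    | succ i ih =>
      have : Finite (G ⧸ derivedSeries G i) := Quotient.finite _
      have : Finite (G ⧸ derivedSeries G (i + 1)) := Quotient.finite _
      let π : G ⧸ derivedSeries G (i + 1) →* G ⧸ derivedSeries G i :=
        QuotientGroup.map _ _ (MonoidHom.id G)
          (fun x hx => derivedSeries_antitone G (Nat.le_succ i) hx)
      refine gc_ext π ?_ _ ih
      intro x y
      induction x using QuotientGroup.induction_on with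
      | H x =>
        induction y using QuotientGroup.induction_on with
        | H y =>
          intro hx hy
          have hx' : ((x : G) : G ⧸ derivedSeries G i) = 1 := hx
          have hy' : ((y : G) : G ⧸ derivedSeries G i) = 1 := hy
          rw [QuotientGroup.eq_one_iff] at hx' hy'
          have h1 := Subgroup.commutator_mem_commutator ((derivedSeries G i).inv_mem hy')
            ((derivedSeries G i).inv_mem hx')
          rw [← derivedSeries_succ, commutatorElement_def, inv_inv, inv_inv] at h1
          rw [← QuotientGroup.mk_mul, ← QuotientGroup.mk_mul, QuotientGroup.eq]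
          have h2 : (x * y)⁻¹ * (y * x) = y⁻¹ * x⁻¹ * y * x := by group
          rw [h2]
          exact h1
  have hinj : Function.Injective (fun g : G => ((g : G) : G ⧸ derivedSeries G k)) := by
    intro x y hxy
    have h1 : ((x : G) : G ⧸ derivedSeries G k) = y := hxy
    rw [QuotientGroup.eq, hk, Subgroup.mem_bot] at h1
    exact (inv_mul_eq_one.1 h1)
  have hout : ∀ y : G ⧸ derivedSeries G k, ((Quotient.out y : G) : G ⧸ derivedSeries G k) = y :=
    fun y => QuotientGroup.out_eq' y
  have : Finite (G ⧸ derivedSeries G k) := Quotient.finite _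
  refine (key k).image Set.univ (fun x => (x.1, Quotient.out x.2)) (fun _ _ _ => trivial) ?_ ?_
  · rintro ⟨t, y⟩ - a
    refine Prod.ext rfl (hinj ?_)
    change ((Quotient.out (y * ((c t a : G) : G ⧸ derivedSeries G k)) : G) :
      G ⧸ derivedSeries G k) = ((Quotient.out y * c t a : G) : G ⧸ derivedSeries G k)
    rw [hout, QuotientGroup.mk_mul, hout]
  · rintro ⟨t, g⟩
    refine ⟨(t, (g : G ⧸ derivedSeries G k)), trivial, ?_⟩
    refine Prod.ext rfl (hinj ?_)
    exact hout _

/-- Automata with a solvable group of automorphisms. -/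
theorem aut_symm {h k : ℕ} {X G : Type} [Finite X] [Finite α] [Group G] [Finite G]
    [MulAction G X] {δ : X → α → X} (hc : ∀ (g : G) (x : X) (a : α), δ (g • x) a = g • δ x a)
    (hk : derivedSeries G k = ⊥)
    (ho : ∀ x y : X, SH h {w : List α | w.foldl δ x ∈ MulAction.orbit G y}) :
    Aut (h + k) δ := by
  classical
  let σ : Type := MulAction.orbitRel.Quotient G X
  have : Finite σ := Quotient.finite _
  have hrel : ∀ x y : X, (Quotient.mk (MulAction.orbitRel G X) x =
      Quotient.mk (MulAction.orbitRel G X) y) ↔ x ∈ MulAction.orbit G y := by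
    intro x y
    rw [Quotient.eq, MulAction.orbitRel_apply]
  let δ' : σ → α → σ := fun b a => Quotient.mk (MulAction.orbitRel G X) (δ (Quotient.out b) a)
  have hδ' : ∀ (x : X) (a : α), δ' (Quotient.mk (MulAction.orbitRel G X) x) a =
      Quotient.mk (MulAction.orbitRel G X) (δ x a) := by
    intro x a
    change Quotient.mk (MulAction.orbitRel G X) _ = _
    rw [hrel]
    have h1 : Quotient.mk (MulAction.orbitRel G X)
        (Quotient.out (Quotient.mk (MulAction.orbitRel G X) x)) =
          Quotient.mk (MulAction.orbitRel G X) x := Quotient.out_eq _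
    rw [hrel] at h1
    obtain ⟨g, hg⟩ := h1
    exact ⟨g, by rw [← hg]; exact (hc g x a).symm⟩
  have hrun : ∀ (w : List α) (x : X), w.foldl δ' (Quotient.mk (MulAction.orbitRel G X) x) =
      Quotient.mk (MulAction.orbitRel G X) (w.foldl δ x) := by
    intro w
    induction w with
    | nil => intro x; rfl
    | cons a w ih => intro x; rw [List.foldl_cons, List.foldl_cons, hδ', ih]
  have hA : Aut h δ' := by
    intro b b'
    induction b using Quotient.inductionOn with
    | h x =>
      induction b' using Quotient.inductionOn with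
      | h y =>
        refine Eq.mp (congrArg (SH h) ?_) (ho x y)
        ext w
        change w.foldl δ x ∈ MulAction.orbit G y ↔
          w.foldl δ' (Quotient.mk (MulAction.orbitRel G X) x) =
            Quotient.mk (MulAction.orbitRel G X) y
        rw [hrun, hrel]
  have hch : ∀ (b : σ) (a : α), ∃ g : G, g • Quotient.out (δ' b a) = δ (Quotient.out b) a := by
    intro b a
    have h1 : Quotient.mk (MulAction.orbitRel G X) (δ (Quotient.out b) a) =
        Quotient.mk (MulAction.orbitRel G X) (Quotient.out (δ' b a)) :=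
      (Quotient.out_eq (δ' b a)).symm
    rw [hrel] at h1
    exact h1
  choose c hcc using hch
  refine (gc_solv hA hk c).image Set.univ (fun x => x.2 • Quotient.out x.1)
    (fun _ _ _ => trivial) ?_ ?_
  · rintro ⟨b, g⟩ - a
    change (g * c b a) • Quotient.out (δ' b a) = δ (g • Quotient.out b) a
    rw [hc, mul_smul, hcc]
  · intro x
    have h1 : Quotient.mk (MulAction.orbitRel G X) x = Quotient.mk (MulAction.orbitRel G X)
        (Quotient.out (Quotient.mk (MulAction.orbitRel G X) x)) := (Quotient.out_eq _).symm
    rw [hrel] at h1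
    obtain ⟨g, hg⟩ := h1
    exact ⟨(Quotient.mk (MulAction.orbitRel G X) x, g), trivial, hg⟩

end symm

end Vale.Agent.P329.H647
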