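import Vale.Agent.P329.H647.Mon

/-!
An aperiodic coordinate does not raise the height.
-/

set_option linter.all false

namespace Vale.Agent.P329.H647

open Vale.Agent.P329 Vale.Agent.P329.H157

section wr

variable {α σ : Type}

theorem foldl_mul {X A : Type} [Monoid A] (c : X → A) (l : List X) : ∀ t : A,
    l.foldl (fun (t : A) x => t * c x) t = t * (l.map c).prod := by
  induction l with
  | nil => intro t; simp
  | cons x l ih => intro t; rw [List.foldl_cons, ih, List.map_cons, List.prod_cons, mul_assoc]

theorem aper_aut {X A : Type} [Finite X] [Monoid A] [Finite A]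
    (hap : ∀ x : A, ∃ k, x ^ (k + 1) = x ^ k) (c : X → A) :
    Aut 0 (fun (t : A) x => t * c x) := by
  intro t t'
  have h0 : Aut 0 (fun (_ : Unit) (_ : X) => ()) := by
    intro q q'
    refine Eq.mp (congrArg (SH 0) ?_) (SH.univ (k := 0) (α := X))
    ext w
    exact ⟨fun _ => Subsingleton.elim _ _, fun _ => trivial⟩
  have h1 := malk (fun (_ : Unit) (_ : X) => ()) h0 () c (fun u v _ _ => hap _)
    {s : A | t * s = t'}
  refine Eq.mp (congrArg (SH 0) ?_) h1
  ext w
  change t * (w.map c).prod = t' ↔ w.foldl (fun (t : A) x => t * c x) t = t'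
  rw [foldl_mul]

/-- An aperiodic coordinate does not raise the height. -/
theorem Aut.casc_aper {h : ℕ} [Finite σ] [Finite α] {A : Type} [Monoid A] [Finite A]
    (hap : ∀ x : A, ∃ k, x ^ (k + 1) = x ^ k) {δ : σ → α → σ} (hA : Aut h δ) (c : σ × α → A) :
    Aut h (casc δ fun (v : A) x => v * c x) :=
  hA.casc_star_free _ (aper_aut hap c)

end wr

end Vale.Agent.P329.H647
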